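import Vale.Agent.Lib.P329.Wreath

namespace Vale.Agent.P329

universe u
variable {α : Type u}

/-- The Klein four group, written additively. -/
abbrev V4 : Type := ZMod 2 × ZMod 2

/-- An automorphism of order three. -/
def th : V4 →+ V4 where
  toFun v := (v.2, v.1 + v.2)
  map_zero' := rfl
  map_add' := by decide

/-- The action of `ZMod 3`. -/
def rhoV (t : ZMod 3) : V4 →+ V4 :=
  if t = 0 then AddMonoidHom.id V4 else if t = 1 then th else th.comp th

lemma rhoV_add (s t : ZMod 3) (x : V4) : rhoV (s + t) x = rhoV s (rhoV t x) := by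
  revert s t x; decide

lemma rhoV_zero (x : V4) : rhoV 0 x = x := rfl

/-- The swap of coordinates. -/
def sw : V4 →+ V4 where
  toFun v := (v.2, v.1)
  map_zero' := rfl
  map_add' := by decide

lemma sw_rho (t : ZMod 3) (x : V4) : sw (rhoV t x) = rhoV (-t) (sw x) := by
  revert t x; decide

lemma sw_sw (x : V4) : sw (sw x) = x := rfl

lemma Fc_swap (σ : α → ZMod 3) (v : α → V4) (w : List α) :
    Fc rhoV (fun a => -σ a) (fun a => sw (v a)) w = sw (Fc rhoV σ v w) := by
  induction w with
  | nil => rfl
  | cons a w ih => simp only [Fc, ih, map_add, sw_rho]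

lemma sg_neg (σ : α → ZMod 3) (w : List α) : sg (fun a => -σ a) w = -sg σ w := by
  induction w with
  | nil => simp [sg]
  | cons a w ih =>
    have h1 : sg (fun a => -σ a) (a :: w) = -σ a + sg (fun a => -σ a) w := rfl
    have h2 : sg σ (a :: w) = σ a + sg σ w := rfl
    rw [h1, h2, ih]; ring

lemma Good.swap {σ : α → ZMod 3} {v : α → V4} (h : Good rhoV σ v) :
    Good rhoV (fun a => -σ a) (fun a => sw (v a)) := by
  intro z j
  refine (h (sw z) (-j)).congr fun w => ?_
  simp only [Set.mem_setOf_eq, Fc_swap, sg_neg]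
  constructor
  · rintro ⟨h1, h2⟩
    exact ⟨by rw [h1, sw_sw], by rw [h2, neg_neg]⟩
  · rintro ⟨h1, h2⟩
    exact ⟨by rw [← h1, sw_sw], by rw [← h2, neg_neg]⟩

/-- The four-state automaton. -/
def step1 (σ : α → ZMod 3) (v : α → V4) (x : V4) (a : α) : V4 := rhoV (-σ a) (x + v a)

lemma run_step1 (σ : α → ZMod 3) (v : α → V4) (x : V4) (w : List α) :
    run (step1 σ v) x w = rhoV (-sg σ w) (x + Fc rhoV σ v w) := by
  induction w generalizing x with
  | nil => simp [run, sg, Fc, rhoV_zero]
  | cons a w ih =>
    have h2 : sg σ (a :: w) = σ a + sg σ w := rfl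
    have h3 : rhoV (-σ a) (rhoV (σ a) (Fc rhoV σ v w)) = Fc rhoV σ v w := by
      rw [← rhoV_add, neg_add_cancel, rhoV_zero]
    rw [run, ih, step1, h2, Fc, neg_add_rev, rhoV_add]
    simp only [map_add, h3, add_assoc]

/-- Ranks of the four states. -/
def rk1 (x : V4) : ℕ := if x = (0, 1) then 1 else if x = (1, 1) then 2 else
  if x = (1, 0) then 3 else 0

lemma rk1_mono (t : ZMod 3) (m : Bool) (x : V4) (hx : x ≠ 0) :
    let v : V4 := if t = 0 then 0 else if t = 1 then (if m then (1, 1) else (1, 0)) else (1, 0)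
    rhoV (-t) (x + v) = x ∨ rhoV (-t) (x + v) = 0 ∨ rk1 x < rk1 (rhoV (-t) (x + v)) := by
  revert t m x; decide

/-- Letter values of the first automaton. -/
def vA (σ : α → ZMod 3) (M : α → Bool) (a : α) : V4 :=
  if σ a = 0 then 0 else if σ a = 1 then (if M a then (1, 1) else (1, 0)) else (1, 0)

lemma Good_vA [Finite α] (σ : α → ZMod 3) (M : α → Bool) : Good rhoV σ (vA σ M) := by
  intro z j
  have h1 : ∀ i k : V4, Ht 1 {w : List α | run (step1 σ (vA σ M)) i w = k} :=
    fun i k => Ht_run_of_monotone (step1 σ (vA σ M)) 0 rk1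
      (fun i a hi => rk1_mono (σ a) (M a) i hi) i k
  refine ((h1 0 (rhoV (-j) z)).inter (h1 (0, 1) (rhoV (-j) ((0, 1) + z)))).congr fun w => ?_
  simp only [Set.mem_setOf_eq, Set.mem_inter_iff, run_step1, zero_add]
  constructor
  · rintro ⟨h2, h3⟩
    rw [map_add, map_add, h2] at h3
    have h4 : rhoV (-sg σ w) (0, 1) = rhoV (-j) (0, 1) := add_right_cancel h3
    have h5 : ∀ s t : ZMod 3, rhoV (-s) (0, 1) = rhoV (-t) (0, 1) → s = t := by decide
    have h6 := h5 _ _ h4
    refine ⟨?_, h6⟩
    rw [h6] at h2
    have h7 : ∀ (t : ZMod 3) (x y : V4), rhoV t x = rhoV t y → x = y := by decide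
    exact h7 _ _ _ h2
  · rintro ⟨h2, h3⟩
    rw [h2, h3]
    exact ⟨rfl, rfl⟩

lemma rho_comm (s t : ZMod 3) (x : V4) : rhoV s (rhoV t x) = rhoV t (rhoV s x) := by
  rw [← rhoV_add, ← rhoV_add, add_comm]

lemma Good_single_one [Finite α] [DecidableEq α] (σ : α → ZMod 3) (a : α) (ha : σ a = 1)
    (z : V4) : Good rhoV σ (fun b => if b = a then z else 0) := by
  have h0 := (Good_vA σ (fun b => decide (b = a))).add (Good_vA σ (fun _ => false))
  have h1 : Good rhoV σ (fun b => if b = a then ((0, 1) : V4) else 0) := by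
    refine cast (congrArg (Good rhoV σ) (funext fun b => ?_)) h0
    have hd : ∀ x : V4, x + x = 0 := by decide
    by_cases hb : b = a
    · subst hb
      rw [if_pos rfl]
      simp only [vA, ha, decide_true, if_true, Bool.false_eq_true, if_false]
      decide
    · simp only [vA, hb, decide_false, if_false]
      exact hd _
  by_cases hz : z = 0
  · subst hz
    have h2 := h1.zero
    refine cast (congrArg (Good rhoV σ) (funext fun b => ?_)) h2
    simp
  · obtain ⟨t, ht⟩ : ∃ t : ZMod 3, rhoV t (0, 1) = z := by revert z; decide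
    have h2 := h1.map (rhoV t) (fun s x => rho_comm t s x)
    refine cast (congrArg (Good rhoV σ) (funext fun b => ?_)) h2
    by_cases hb : b = a
    · simp [hb, ht]
    · simp [hb]

lemma Good_single_two [Finite α] [DecidableEq α] (σ : α → ZMod 3) (a : α) (ha : σ a = 2)
    (z : V4) : Good rhoV σ (fun b => if b = a then z else 0) := by
  have h1 := (Good_single_one (fun b => -σ b) a (by simp only [ha]; decide) (sw z)).swap
  simp only [neg_neg] at h1
  refine cast (congrArg (Good rhoV σ) (funext fun b => ?_)) h1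
  by_cases hb : b = a
  · simp [hb, sw_sw]
  · simp [hb]

/-- The equivariant map from the regular module sending `dl` to `z`. -/
def lam (z : V4) : Reg →+ V4 where
  toFun g := ∑ s : ZMod 3, if g s = 0 then 0 else rhoV (-s) z
  map_zero' := by simp
  map_add' g g' := by
    rw [← Finset.sum_add_distrib]
    refine Finset.sum_congr rfl fun s _ => ?_
    have h : ∀ (x y : ZMod 2) (v : V4), (if x + y = 0 then 0 else v) =
        (if x = 0 then 0 else v) + (if y = 0 then 0 else v) := by decide
    exact h (g s) (g' s) _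

lemma lam_dl (z : V4) : lam z dl = z := by
  change (∑ s : ZMod 3, if dl s = 0 then 0 else rhoV (-s) z) = z
  revert z; decide

lemma lam_rho (z : V4) (t : ZMod 3) (g : Reg) : lam z (rhoR t g) = rhoV t (lam z g) := by
  change (∑ s : ZMod 3, if g (s + t) = 0 then 0 else rhoV (-s) z) =
    rhoV t (∑ s : ZMod 3, if g s = 0 then 0 else rhoV (-s) z)
  rw [map_sum]
  refine Fintype.sum_equiv (Equiv.addRight t) _ _ fun s => ?_
  simp only [Equiv.coe_addRight]
  by_cases h : g (s + t) = 0
  · simp [h]
  · simp only [h, if_false]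
    rw [← rhoV_add]
    congr 1
    ring_nf

lemma Good_single [Finite α] [DecidableEq α] (σ : α → ZMod 3) (a : α) (z : V4) :
    Good rhoV σ (fun b => if b = a then z else 0) := by
  have h3 : ∀ t : ZMod 3, t = 0 ∨ t = 1 ∨ t = 2 := by decide
  rcases h3 (σ a) with h | h | h
  · have h1 := (Good_single_N σ a h).map (lam z) (lam_rho z)
    refine cast (congrArg (Good rhoV σ) (funext fun b => ?_)) h1
    by_cases hb : b = a
    · simp [hb, lam_dl]
    · simp [hb]
  · exact Good_single_one σ a h z
  · exact Good_single_two σ a h z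

lemma Good_all [Finite α] (σ : α → ZMod 3) (v : α → V4) : Good rhoV σ v := by
  classical
  haveI := Fintype.ofFinite α
  have key : ∀ s : Finset α, Good rhoV σ (fun b => if b ∈ s then v b else 0) := by
    intro s
    induction s using Finset.induction_on with
    | empty =>
      have := (Good_vA σ (fun _ => false)).zero
      simpa using this
    | insert a s ha ih =>
      refine cast (congrArg (Good rhoV σ) (funext fun b => ?_)) (ih.add (Good_single σ a (v a)))
      by_cases hb : b = a
      · subst hb
        simp [ha]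
      · simp [hb]
  simpa using key Finset.univ

end Vale.Agent.P329
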