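import Mathlib
import Vale.Agent.Lib.P329.Defs

namespace Vale.Agent.P329

universe u
variable {α : Type u}

/-- `L` is denoted by an expression of star height at most `k`. -/
def Ht (k : ℕ) (L : Set (List α)) : Prop := ∃ e : GRE α, e.sh ≤ k ∧ ∀ w, w ∈ e.lang ↔ w ∈ L

/-- Concatenation. -/
def Cat (L L' : Set (List α)) : Set (List α) := {w | ∃ x y, x ∈ L ∧ y ∈ L' ∧ w = x ++ y}

/-- Kleene star. -/
def Star (L : Set (List α)) : Set (List α) :=
  {w | ∃ S : List (List α), w = S.flatten ∧ ∀ y ∈ S, y ∈ L}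

lemma Ht.congr {k : ℕ} {L L' : Set (List α)} (h : Ht k L) (hh : ∀ w, w ∈ L ↔ w ∈ L') :
    Ht k L' := by
  obtain ⟨e, he, hw⟩ := h
  exact ⟨e, he, fun w => (hw w).trans (hh w)⟩

lemma Ht.mono {k l : ℕ} {L : Set (List α)} (h : Ht k L) (hkl : k ≤ l) : Ht l L := by
  obtain ⟨e, he, hw⟩ := h
  exact ⟨e, he.trans hkl, hw⟩

lemma Ht_empty (k : ℕ) : Ht k (∅ : Set (List α)) :=
  ⟨.zero, Nat.zero_le _, fun w => by simp [GRE.lang, Language.notMem_zero]⟩

lemma Ht_nil (k : ℕ) : Ht k {w : List α | w = []} :=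
  ⟨.one, Nat.zero_le _, fun w => by simp [GRE.lang, Language.mem_one]⟩

lemma Ht_letter (k : ℕ) (a : α) : Ht k {w : List α | w = [a]} :=
  ⟨.letter a, Nat.zero_le _, fun w => by
    simp only [GRE.lang]
    exact Iff.rfl⟩

lemma Ht.union {k : ℕ} {L L' : Set (List α)} (h : Ht k L) (h' : Ht k L') : Ht k (L ∪ L') := by
  obtain ⟨e, he, hw⟩ := h
  obtain ⟨e', he', hw'⟩ := h'
  refine ⟨.plus e e', by simp [GRE.sh, he, he'], fun w => ?_⟩
  simp only [GRE.lang, Language.mem_add, Set.mem_union, hw, hw']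

lemma Ht.compl {k : ℕ} {L : Set (List α)} (h : Ht k L) : Ht k Lᶜ := by
  obtain ⟨e, he, hw⟩ := h
  refine ⟨.neg e, by simpa [GRE.sh] using he, fun w => ?_⟩
  simp only [GRE.lang, Set.mem_compl_iff, ← hw]
  exact Iff.rfl

lemma Ht.inter {k : ℕ} {L L' : Set (List α)} (h : Ht k L) (h' : Ht k L') : Ht k (L ∩ L') := by
  have h2 := (h.compl.union h'.compl).compl
  rwa [Set.compl_union, compl_compl, compl_compl] at h2

lemma Ht.cat {k : ℕ} {L L' : Set (List α)} (h : Ht k L) (h' : Ht k L') : Ht k (Cat L L') := by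
  obtain ⟨e, he, hw⟩ := h
  obtain ⟨e', he', hw'⟩ := h'
  refine ⟨.cat e e', by simp [GRE.sh, he, he'], fun w => ?_⟩
  simp only [GRE.lang, Language.mem_mul, Cat, Set.mem_setOf_eq]
  constructor
  · rintro ⟨x, hx, y, hy, rfl⟩
    exact ⟨x, y, (hw x).1 hx, (hw' y).1 hy, rfl⟩
  · rintro ⟨x, y, hx, hy, rfl⟩
    exact ⟨x, (hw x).2 hx, y, (hw' y).2 hy, rfl⟩

lemma Ht.star {k : ℕ} {L : Set (List α)} (h : Ht k L) : Ht (k + 1) (Star L) := by
  obtain ⟨e, he, hw⟩ := h
  refine ⟨.star e, by simpa [GRE.sh] using he, fun w => ?_⟩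
  simp only [GRE.lang, Language.mem_kstar, Star, Set.mem_setOf_eq, hw]

lemma Ht_univ (k : ℕ) : Ht k (Set.univ : Set (List α)) := by
  have := (Ht_empty (α := α) k).compl
  rwa [Set.compl_empty] at this

lemma Ht_exists {ι : Type*} [Finite ι] {k : ℕ} (f : ι → Set (List α)) (h : ∀ i, Ht k (f i)) :
    Ht k {w | ∃ i, w ∈ f i} := by
  classical
  haveI := Fintype.ofFinite ι
  have key : ∀ s : Finset ι, Ht k {w | ∃ i ∈ s, w ∈ f i} := by
    intro s
    induction s using Finset.induction_on with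
    | empty =>
      refine (Ht_empty k).congr fun w => ?_
      simp
    | insert i s _ ih =>
      refine ((h i).union ih).congr fun w => ?_
      simp
  refine (key Finset.univ).congr fun w => ?_
  simp

lemma Ht_forall {ι : Type*} [Finite ι] {k : ℕ} (f : ι → Set (List α)) (h : ∀ i, Ht k (f i)) :
    Ht k {w | ∀ i, w ∈ f i} := by
  refine (Ht_exists (fun i => (f i)ᶜ) fun i => (h i).compl).compl.congr fun w => ?_
  simp

/-- Restrict a family by a condition not depending on the word. -/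
lemma Ht_and {k : ℕ} (p : Prop) {L : Set (List α)} (h : p → Ht k L) :
    Ht k {w | p ∧ w ∈ L} := by
  classical
  by_cases hp : p
  · exact (h hp).congr fun w => by simp [hp]
  · exact (Ht_empty k).congr fun w => by simp [hp]

lemma Ht_letters [Finite α] (k : ℕ) (p : α → Prop) : Ht k {w : List α | ∃ a, p a ∧ w = [a]} := by
  refine (Ht_exists (fun a => {w : List α | p a ∧ w ∈ {w : List α | w = [a]}})
    fun a => Ht_and _ fun _ => Ht_letter k a).congr fun w => ?_
  simp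

/-- All letters satisfy `p`. -/
lemma Ht_all [Finite α] (k : ℕ) (p : α → Prop) : Ht k {w : List α | ∀ a ∈ w, p a} := by
  refine (((Ht_univ k).cat ((Ht_letters k fun a => ¬ p a).cat (Ht_univ k))).compl).congr
    fun w => ?_
  simp only [Cat, Set.mem_compl_iff, Set.mem_setOf_eq, Set.mem_univ, true_and, not_exists]
  constructor
  · intro h a ha
    by_contra hp
    obtain ⟨x, y, rfl⟩ := List.append_of_mem ha
    exact h x (a :: y) ⟨⟨[a], y, ⟨a, hp, rfl⟩, rfl⟩, rfl⟩
  · rintro h x y ⟨⟨x', y', ⟨a, hp, rfl⟩, rfl⟩, rfl⟩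
    exact hp (h a (by simp))

end Vale.Agent.P329
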