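import Vale.Agent.Lib.P329.AltFour

namespace Vale.Agent.P329

universe u
variable {α : Type u}

/-- All languages given by the value of a word in `G` have height at most one. -/
def GoodG {G : Type*} [Monoid G] (φ : α → G) : Prop :=
  ∀ g : G, Ht 1 {w : List α | (w.map φ).prod = g}

/-- The Klein four group in the symmetric group. -/
def tV (v : V4) : Equiv.Perm (Fin 4) :=
  if v = (0, 0) then 1 else if v = (1, 0) then Equiv.swap 0 1 * Equiv.swap 2 3 else
    if v = (0, 1) then Equiv.swap 0 2 * Equiv.swap 1 3 else Equiv.swap 0 3 * Equiv.swap 1 2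

/-- The powers of a three-cycle. -/
def cS (s : ZMod 3) : Equiv.Perm (Fin 4) :=
  if s = 0 then 1 else if s = 1 then Equiv.swap 1 2 * Equiv.swap 2 3 else
    Equiv.swap 2 3 * Equiv.swap 1 2

/-- The affine parametrisation of the alternating group. -/
def psi (p : V4 × ZMod 3) : Equiv.Perm (Fin 4) := tV p.1 * cS p.2

lemma tV_add : ∀ v v' : V4, tV (v + v') = tV v * tV v' := by decide

lemma cS_add : ∀ s s' : ZMod 3, cS (s + s') = cS s * cS s' := by decide

lemma cS_tV : ∀ (s : ZMod 3) (v : V4), cS s * tV v = tV (rhoV s v) * cS s := by decide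

lemma psi_mul (v v' : V4) (s s' : ZMod 3) :
    psi (v, s) * psi (v', s') = psi (v + rhoV s v', s + s') := by
  simp only [psi, tV_add, cS_add]
  rw [mul_assoc, ← mul_assoc (cS s), cS_tV]
  simp only [mul_assoc]

lemma psi_inj : Function.Injective psi := by
  intro p q h
  revert p q
  decide

lemma psi_sign : ∀ p, Equiv.Perm.sign (psi p) = 1 := by decide

lemma psi_surj (g : alternatingGroup (Fin 4)) : ∃ p, psi p = (g : Equiv.Perm (Fin 4)) := by
  let f : V4 × ZMod 3 → alternatingGroup (Fin 4) :=
    fun p => ⟨psi p, Equiv.Perm.mem_alternatingGroup.2 (psi_sign p)⟩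
  have hf : Function.Injective f := fun p q h => psi_inj (congrArg Subtype.val h)
  have hc : Fintype.card (V4 × ZMod 3) = Fintype.card (alternatingGroup (Fin 4)) := by
    have h1 : 2 * Fintype.card (alternatingGroup (Fin 4)) = Fintype.card (Equiv.Perm (Fin 4)) :=
      two_mul_card_alternatingGroup
    rw [Fintype.card_perm, Fintype.card_fin] at h1
    have h2 : Fintype.card (V4 × ZMod 3) = 12 := by decide
    have h3 : Nat.factorial 4 = 24 := rfl
    omega
  obtain ⟨p, hp⟩ := ((Fintype.bijective_iff_injective_and_card f).2 ⟨hf, hc⟩).2 g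
  exact ⟨p, congrArg Subtype.val hp⟩

lemma prod_psi (σ : α → ZMod 3) (v : α → V4) (w : List α) :
    (w.map fun a => psi (v a, σ a)).prod = psi (Fc rhoV σ v w, sg σ w) := by
  induction w with
  | nil => rfl
  | cons a w ih =>
    have h2 : sg σ (a :: w) = σ a + sg σ w := rfl
    rw [List.map_cons, List.prod_cons, ih, psi_mul, h2, Fc]

lemma GoodG_alt [Finite α] (φ : α → alternatingGroup (Fin 4)) : GoodG φ := by
  choose p hp using fun a => psi_surj (φ a)
  intro g
  refine (Ht_exists (fun q : V4 × ZMod 3 => {w | (psi q = (g : Equiv.Perm (Fin 4))) ∧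
    w ∈ {w : List α | Fc rhoV (fun a => (p a).2) (fun a => (p a).1) w = q.1 ∧
      sg (fun a => (p a).2) w = q.2}}) fun q => Ht_and _ fun _ => Good_all _ _ _ _).congr
    fun w => ?_
  have h1 : (((w.map φ).prod : alternatingGroup (Fin 4)) : Equiv.Perm (Fin 4)) =
      psi (Fc rhoV (fun a => (p a).2) (fun a => (p a).1) w, sg (fun a => (p a).2) w) := by
    rw [← prod_psi]
    have h2 : ∀ w : List α, (((w.map φ).prod : alternatingGroup (Fin 4)) :
        Equiv.Perm (Fin 4)) = (w.map fun a => psi ((p a).1, (p a).2)).prod := by
      intro w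
      induction w with
      | nil => rfl
      | cons a w ih =>
        rw [List.map_cons, List.prod_cons, List.map_cons, List.prod_cons, ← ih, Subgroup.coe_mul,
          ← hp a]
    exact h2 w
  simp only [Set.mem_setOf_eq]
  constructor
  · rintro ⟨q, h3, h4, h5⟩
    apply Subtype.ext
    rw [h1, h4, h5, ← h3]
  · intro h
    exact ⟨(Fc rhoV (fun a => (p a).2) (fun a => (p a).1) w, sg (fun a => (p a).2) w),
      h1.symm.trans (congrArg Subtype.val h), rfl, rfl⟩

/-! ### Abelian groups -/

/-- Counting a letter modulo `m`. -/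
lemma Ht_count [Finite α] [DecidableEq α] (m : ℕ) [NeZero m] (a : α) (c : ZMod m) :
    Ht 1 {w : List α | ((w.count a : ℕ) : ZMod m) = c} := by
  have h1 := Ht_run_of_monotone (fun (x : ZMod m) (b : α) => if b = a then x + 1 else x) 0
    (fun x => x.val) (fun x b hx => by
      by_cases hb : b = a
      · simp only [hb, if_true]
        by_cases h0 : x + 1 = 0
        · exact Or.inr (Or.inl h0)
        · refine Or.inr (Or.inr ?_)
          have hm : 1 < m := by
            rcases Nat.lt_or_ge 1 m with h | h
            · exact h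
            · have hm1 : m = 1 := le_antisymm h (Nat.one_le_iff_ne_zero.2 (NeZero.ne m))
              subst hm1
              exact absurd (Subsingleton.elim x 0) hx
          haveI : Fact (1 < m) := ⟨hm⟩
          have hlt := ZMod.val_lt x
          have hne : x.val + 1 ≠ m := by
            intro h
            apply h0
            have h2 : ((x.val + 1 : ℕ) : ZMod m) = 0 := by rw [h]; exact ZMod.natCast_self m
            rwa [Nat.cast_add, ZMod.natCast_zmod_val, Nat.cast_one] at h2
          rw [ZMod.val_add, ZMod.val_one, Nat.mod_eq_of_lt (by omega)]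
          omega
      · simp only [hb, if_false]
        exact Or.inl trivial) 0 c
  refine h1.congr fun w => ?_
  have h2 : ∀ (w : List α) (x : ZMod m),
      run (fun (x : ZMod m) (b : α) => if b = a then x + 1 else x) x w =
        x + ((w.count a : ℕ) : ZMod m) := by
    intro w
    induction w with
    | nil => intro x; simp [run]
    | cons b w ih =>
      intro x
      rw [run, ih]
      by_cases hb : b = a
      · subst hb
        simp only [if_true, List.count_cons_self, Nat.cast_add, Nat.cast_one]
        ring
      · have : (b == a) = false := by simpa using hb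
        simp [hb, List.count_cons, this]
  simp only [Set.mem_setOf_eq, h2, zero_add]

lemma GoodG_one {G : Type*} [Monoid G] : GoodG (fun _ : α => (1 : G)) := by
  intro g
  refine (Ht_and (g = 1) fun _ => Ht_univ 1).congr fun w => ?_
  have h : (w.map fun _ : α => (1 : G)).prod = 1 := by
    induction w with
    | nil => rfl
    | cons a w ih => rw [List.map_cons, List.prod_cons, ih, one_mul]
  simp only [Set.mem_setOf_eq, h, Set.mem_univ, and_true, eq_comm]

lemma GoodG.mul {B : Type*} [CommGroup B] [Finite B] {φ φ' : α → B} (h : GoodG φ)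
    (h' : GoodG φ') : GoodG (fun a => φ a * φ' a) := by
  intro g
  refine (Ht_exists (fun x : B => {w : List α | (w.map φ).prod = x} ∩
    {w : List α | (w.map φ').prod = x⁻¹ * g}) fun x => (h x).inter (h' _)).congr fun w => ?_
  have hm : (w.map fun a => φ a * φ' a).prod = (w.map φ).prod * (w.map φ').prod :=
    List.prod_map_mul
  simp only [Set.mem_setOf_eq, Set.mem_inter_iff, hm]
  constructor
  · rintro ⟨x, h1, h2⟩
    rw [h1, h2, mul_inv_cancel_left]
  · intro h1
    exact ⟨_, rfl, by rw [← h1, inv_mul_cancel_left]⟩

lemma GoodG_single {B : Type*} [CommGroup B] [Finite B] [Finite α] [DecidableEq α] (a : α)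
    (b : B) : GoodG (fun c : α => if c = a then b else 1) := by
  intro g
  haveI : NeZero (orderOf b) := ⟨(orderOf_pos b).ne'⟩
  refine (Ht_exists (fun k : ZMod (orderOf b) => {w | (b ^ k.val = g) ∧
    w ∈ {w : List α | ((w.count a : ℕ) : ZMod (orderOf b)) = k}})
    fun k => Ht_and _ fun _ => Ht_count _ a k).congr fun w => ?_
  have h1 : (w.map fun c : α => if c = a then b else 1).prod = b ^ (w.count a) := by
    induction w with
    | nil => simp
    | cons c w ih =>
      rw [List.map_cons, List.prod_cons, ih]
      by_cases hc : c = a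
      · subst hc
        simp [pow_succ']
      · have : (c == a) = false := by simpa using hc
        simp [hc, List.count_cons, this]
  simp only [Set.mem_setOf_eq, h1]
  have h2 : b ^ (((w.count a : ℕ) : ZMod (orderOf b)).val) = b ^ (w.count a) := by
    rw [ZMod.val_natCast, pow_mod_orderOf]
  constructor
  · rintro ⟨k, h3, h4⟩
    rw [← h2, h4, h3]
  · intro h3
    exact ⟨_, by rw [h2, h3], rfl⟩

lemma GoodG_comm {B : Type*} [CommGroup B] [Finite B] [Finite α] (φ : α → B) : GoodG φ := by
  classical
  haveI := Fintype.ofFinite α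
  have key : ∀ s : Finset α, GoodG (fun c => if c ∈ s then φ c else 1) := by
    intro s
    induction s using Finset.induction_on with
    | empty => simpa using (GoodG_one (α := α) (G := B))
    | insert a s ha ih =>
      refine cast (congrArg GoodG (funext fun c => ?_)) (ih.mul (GoodG_single a (φ a)))
      by_cases hc : c = a
      · subst hc
        simp [ha]
      · simp [hc]
  simpa using key Finset.univ

/-! ### Products and subgroups -/

lemma map_prod_list {G H : Type*} [Monoid G] [Monoid H] (f : G →* H) (φ : α → G)
    (w : List α) : (w.map fun a => f (φ a)).prod = f (w.map φ).prod := by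
  induction w with
  | nil => simp
  | cons a w ih => rw [List.map_cons, List.prod_cons, ih, List.map_cons, List.prod_cons, map_mul]

/-- Main theorem in the internal language. -/
theorem Ht_group [Finite α] {G : Type*} [Group G] {k : ℕ} {B : Type*} [CommGroup B] [Finite B]
    (f : G →* (Fin k → alternatingGroup (Fin 4)) × B) (hf : Function.Injective f) (φ : α → G)
    (S : Set G) : Ht 1 {w : List α | (w.map φ).prod ∈ S} := by
  haveI : Finite G := Finite.of_injective f hf
  have hg : GoodG φ := by
    intro g
    have h1 : ∀ i : Fin k, Ht 1 {w : List α | (w.map fun a => (f (φ a)).1 i).prod = (f g).1 i} :=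
      fun i => GoodG_alt (fun a => (f (φ a)).1 i) _
    have h2 : Ht 1 {w : List α | (w.map fun a => (f (φ a)).2).prod = (f g).2} :=
      GoodG_comm (fun a => (f (φ a)).2) _
    refine ((Ht_forall _ h1).inter h2).congr fun w => ?_
    have e1 : ∀ i : Fin k, (w.map fun a => (f (φ a)).1 i).prod = (f (w.map φ).prod).1 i :=
      fun i => map_prod_list (((Pi.evalMonoidHom _ i).comp (MonoidHom.fst _ _)).comp f) φ w
    have e2 : (w.map fun a => (f (φ a)).2).prod = (f (w.map φ).prod).2 :=
      map_prod_list ((MonoidHom.snd _ _).comp f) φ w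
    simp only [Set.mem_inter_iff, Set.mem_setOf_eq, e1, e2]
    constructor
    · rintro ⟨h3, h4⟩
      exact hf (Prod.ext (funext h3) h4)
    · intro h3
      rw [h3]
      exact ⟨fun _ => rfl, rfl⟩
  refine (Ht_exists (fun g : G => {w | (g ∈ S) ∧ w ∈ {w : List α | (w.map φ).prod = g}})
    fun g => Ht_and _ fun _ => hg g).congr fun w => ?_
  simp only [Set.mem_setOf_eq]
  constructor
  · rintro ⟨g, h1, rfl⟩
    exact h1
  · intro h1
    exact ⟨_, h1, rfl⟩

end Vale.Agent.P329
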