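import Vale.Agent.Lib.P329.Rc
import Vale.Agent.Lib.P329.Groups

/-! Products over the positions of a word of functions of the letter counts of the prefix. -/

namespace Vale.Agent.P329

universe u
variable {α : Type u} [DecidableEq α] {A : Type*} [CommGroup A]

/-- product over the positions of the word, `N` counts the letters read before -/
def Y (ψ : α → (α → ℕ) → A) : (α → ℕ) → List α → A
  | _, [] => 1
  | N, a :: w => ψ a N * Y ψ (N + Pi.single a 1) w

lemma Y_mul (ψ ψ' : α → (α → ℕ) → A) (w : List α) : ∀ N,
    Y (fun a N => ψ a N * ψ' a N) N w = Y ψ N w * Y ψ' N w := by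
  induction w with
  | nil => intro N; simp [Y]
  | cons a w ih => intro N; simp only [Y, ih]; exact mul_mul_mul_comm _ _ _ _

lemma Y_inv (ψ : α → (α → ℕ) → A) (w : List α) : ∀ N,
    Y (fun a N => (ψ a N)⁻¹) N w = (Y ψ N w)⁻¹ := by
  induction w with
  | nil => intro N; simp [Y]
  | cons a w ih => intro N; simp only [Y, ih, mul_inv]

lemma Y_one (w : List α) : ∀ N, Y (fun _ _ => (1 : A)) N w = 1 := by
  induction w with
  | nil => intro N; rfl
  | cons a w ih => intro N; simp only [Y, ih, mul_one]

/-- telescoping product -/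
lemma Y_tele (H : (α → ℕ) → A) (w : List α) : ∀ N,
    Y (fun a N => H (N + Pi.single a 1) * (H N)⁻¹) N w =
      H (N + fun b => w.count b) * (H N)⁻¹ := by
  induction w with
  | nil =>
    intro N
    have : (N + fun b => List.count b ([] : List α)) = N := by funext b; simp
    rw [this]
    simp [Y]
  | cons a w ih =>
    intro N
    simp only [Y, ih]
    have : (N + Pi.single a 1 + fun b => w.count b) = N + fun b => (a :: w).count b := by
      funext b
      simp only [Pi.add_apply, Pi.single_apply, List.count_cons]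
      by_cases h : b = a
      · subst h; simp; ring
      · have h' : (a == b) = false := by simpa using (Ne.symm h)
        simp [h, h']
    rw [this]
    simp only [← div_eq_mul_inv]
    exact div_mul_div_cancel' _ _ _

/-- `ψ` at the letter `c`, `1` elsewhere -/
def only (c : α) (f : (α → ℕ) → A) : α → (α → ℕ) → A := fun a N => if a = c then f N else 1

/-- the product over the occurrences of `c` is recognizable with height one -/
def PP (c : α) (f : (α → ℕ) → A) : Prop := Rc (fun w => Y (only c f) 0 w)

variable [Finite A]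

lemma PP.mul {c : α} {f g : (α → ℕ) → A} (hf : PP c f) (hg : PP c g) :
    PP c (fun N => f N * g N) := by
  refine (hf.comp2 hg (fun x y => x * y)).congr fun w => ?_
  rw [← Y_mul]
  congr 1
  funext a N
  simp only [only]
  split_ifs <;> simp

lemma PP.inv {c : α} {f : (α → ℕ) → A} (hf : PP c f) : PP c (fun N => (f N)⁻¹) := by
  refine (hf.comp (fun x => x⁻¹)).congr fun w => ?_
  rw [← Y_inv]
  congr 1
  funext a N
  simp only [only]
  split_ifs <;> simp

lemma PP_one (c : α) : PP c (fun _ => (1 : A)) := by
  refine (Rc_const (1 : A)).congr fun w => ?_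
  have : (only c fun _ => (1 : A)) = fun _ _ => 1 := by
    funext a N; simp [only]
  rw [this, Y_one]

lemma PP.congr {c : α} {f g : (α → ℕ) → A} (hf : PP c f) (h : ∀ N, f N = g N) : PP c g := by
  have : f = g := funext h
  rwa [← this]

lemma pow_val_add {m : ℕ} [NeZero m] {z : A} (hz : z ^ m = 1) (x y : ZMod m) :
    z ^ (x + y).val = z ^ x.val * z ^ y.val := by
  rw [ZMod.val_add, ← pow_add]
  exact (pow_eq_pow_mod _ hz).symm

/-- counters for one letter, weighted by a function of the number of letters of `S` modulo `n` -/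
lemma PP_base [Finite α] (c : α) (S : Finset α) (hc : c ∉ S) (n : ℕ) [NeZero n]
    (f : ZMod n → A) : PP c (fun N => f ((∑ b ∈ S, N b : ℕ) : ZMod n)) := by
  set m := Nat.card A with hm
  haveI : NeZero m := ⟨Nat.card_pos.ne'⟩
  have hz : ∀ z : A, z ^ m = 1 := fun z => pow_card_eq_one'
  have h1 : Rc (fun w (r : ZMod n) =>
      (cnt0 (fun a => a ∈ S) (fun a => a = c) (-r) w : ZMod m)) :=
    Rc.pi fun r => Rc_cnt0 _ _ _
  have key : ∀ (w : List α) (N : α → ℕ),
      Y (only c (fun N => f ((∑ b ∈ S, N b : ℕ) : ZMod n))) N w =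
        ∏ r : ZMod n, (f r) ^ (cnt0 (fun a => a ∈ S) (fun a => a = c)
          (((∑ b ∈ S, N b : ℕ) : ZMod n) - r) w : ZMod m).val := by
    intro w
    induction w with
    | nil => intro N; simp [Y, cnt0]
    | cons a w ih =>
      intro N
      rw [Y, ih]
      by_cases haS : a ∈ S
      · have hac : a ≠ c := fun h => hc (h ▸ haS)
        have h2 : ∑ b ∈ S, (N + Pi.single a 1 : α → ℕ) b = (∑ b ∈ S, N b) + 1 := by
          simp only [Pi.add_apply, Finset.sum_add_distrib, Pi.single_apply]
          simp [haS]
        rw [h2, only, if_neg hac, one_mul]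
        refine Finset.prod_congr rfl fun r _ => ?_
        rw [cnt0, if_pos haS]
        congr 3
        push_cast
        ring
      · have h2 : ∑ b ∈ S, (N + Pi.single a 1 : α → ℕ) b = (∑ b ∈ S, N b) := by
          simp only [Pi.add_apply, Finset.sum_add_distrib, Pi.single_apply]
          simp [haS]
        rw [h2]
        by_cases hac : a = c
        · rw [only, if_pos hac]
          have h3 : ∀ r : ZMod n, (f r) ^ (cnt0 (fun a => a ∈ S) (fun a => a = c)
              (((∑ b ∈ S, N b : ℕ) : ZMod n) - r) (a :: w) : ZMod m).val =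
              (if ((∑ b ∈ S, N b : ℕ) : ZMod n) = r then f r else 1) *
              (f r) ^ (cnt0 (fun a => a ∈ S) (fun a => a = c)
              (((∑ b ∈ S, N b : ℕ) : ZMod n) - r) w : ZMod m).val := by
            intro r
            rw [cnt0, if_neg haS, pow_val_add (hz _)]
            congr 1
            by_cases h4 : ((∑ b ∈ S, N b : ℕ) : ZMod n) = r
            · rw [if_pos ⟨hac, sub_eq_zero.2 h4⟩, if_pos h4]
              rcases eq_or_ne m 1 with h5 | h5
              · have h6 := hz (f r)
                rw [h5, pow_one] at h6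
                rw [h6, one_pow]
              · haveI : Fact (1 < m) := ⟨by have := NeZero.pos m; omega⟩
                rw [ZMod.val_one, pow_one]
            · rw [if_neg (fun h => h4 (sub_eq_zero.1 h.2)), if_neg h4, ZMod.val_zero, pow_zero]
          simp only [h3]
          rw [Finset.prod_mul_distrib, Finset.prod_ite_eq]
          simp
        · rw [only, if_neg hac, one_mul]
          refine Finset.prod_congr rfl fun r _ => ?_
          rw [cnt0, if_neg haS, if_neg (fun h => hac h.1), zero_add]
  refine (h1.comp (fun x => ∏ r : ZMod n, (f r) ^ (x r).val)).congr fun w => ?_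
  rw [key]
  refine Finset.prod_congr rfl fun r _ => ?_
  congr 3
  simp

/-! ### Quadratic weights -/

lemma two_choose (t : ℕ) : (2 * (t.choose 2 : ℕ) : ℤ) = t * (t - 1) := by
  induction t with
  | zero => simp
  | succ t ih =>
    rw [Nat.choose_succ_succ' t 1, Nat.choose_one_right]
    push_cast
    linear_combination ih

lemma choose_two_add (x y : ℕ) : (x + y).choose 2 = x.choose 2 + y.choose 2 + x * y := by
  have h1 := two_choose x
  have h2 := two_choose y
  have h3 := two_choose (x + y)
  push_cast at h3
  have h4 : (((x + y).choose 2 : ℕ) : ℤ) = x.choose 2 + y.choose 2 + x * y := by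
    linarith
  exact_mod_cast h4

lemma choose_two_mod (m t : ℕ) : (t % (2 * m)).choose 2 ≡ t.choose 2 [MOD m] := by
  have h := Nat.mod_add_div t (2 * m)
  set r := t % (2 * m)
  set k := t / (2 * m)
  rw [← h, choose_two_add]
  have h1 : m ∣ (2 * m * k).choose 2 := by
    have h2 := two_choose (2 * m * k)
    push_cast at h2
    have h3 : (((2 * m * k).choose 2 : ℕ) : ℤ) = m * (k * (2 * m * k - 1)) := by
      linarith
    exact Int.natCast_dvd_natCast.1 (h3 ▸ Dvd.intro _ rfl)
  have h2 : m ∣ r * (2 * m * k) := Dvd.intro (r * (2 * k)) (by ring)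
  have h3 : m ∣ (2 * m * k).choose 2 + r * (2 * m * k) := dvd_add h1 h2
  rw [add_assoc]
  exact ((Nat.modEq_zero_iff_dvd.2 h3).add_left (r.choose 2)).symm

lemma PP_choose [Finite α] (c : α) (S : Finset α) (hc : c ∉ S) (z : A) :
    PP c (fun N => z ^ (∑ b ∈ S, N b).choose 2) := by
  haveI : NeZero (2 * Nat.card A) := ⟨by have : 0 < Nat.card A := Nat.card_pos; omega⟩
  refine (PP_base c S hc (2 * Nat.card A) (fun t => z ^ t.val.choose 2)).congr fun N => ?_
  rw [ZMod.val_natCast]
  exact pow_eq_pow_iff_modEq.2 ((choose_two_mod (Nat.card A) _).of_dvd (orderOf_dvd_natCard z))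

/-- weight `N a * N b`, letters `a`, `b` different from `c` -/
lemma PP_ab [Finite α] (c a b : α) (hab : a ≠ b) (ha : a ≠ c) (hb : b ≠ c) (z : A) :
    PP c (fun N => z ^ (N a * N b)) := by
  have h1 := ((PP_choose c {a, b} (by simp [ha.symm, hb.symm]) z).mul
    (PP_choose c {a} (by simp [ha.symm]) z).inv).mul (PP_choose c {b} (by simp [hb.symm]) z).inv
  refine h1.congr fun N => ?_
  rw [Finset.sum_pair hab, Finset.sum_singleton, Finset.sum_singleton, choose_two_add, pow_add,
    pow_add]
  rw [mul_assoc (z ^ (N a).choose 2), mul_comm (z ^ (N a).choose 2), mul_inv_cancel_right,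
    mul_comm (z ^ (N b).choose 2), mul_inv_cancel_right]

/-- weight `N a * N c` at the letter `c` -/
lemma PP_ac [Finite α] (c a : α) (ha : a ≠ c) (z : A) :
    PP c (fun N => z ^ (N a * N c)) := by
  set M := 2 * Nat.card A with hM
  haveI : NeZero M := ⟨by have : 0 < Nat.card A := Nat.card_pos; omega⟩
  -- the total
  let H : (α → ℕ) → A := fun N => z ^ (N a * (N c).choose 2)
  have hH : Rc (fun w => Y (fun b N => H (N + Pi.single b 1) * (H N)⁻¹) 0 w) := by
    have h1 : Rc (fun w : List α => ((w.count a : ℕ) : ZMod M)) := fun x => Ht_count M a x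
    have h2 : Rc (fun w : List α => ((w.count c : ℕ) : ZMod M)) := fun x => Ht_count M c x
    refine (h1.comp2 h2 (fun x y => z ^ (x.val * y.val.choose 2))).congr fun w => ?_
    rw [Y_tele]
    simp only [H, zero_add, Pi.zero_apply, zero_mul, pow_zero, inv_one, mul_one]
    rw [ZMod.val_natCast, ZMod.val_natCast]
    refine pow_eq_pow_iff_modEq.2 (Nat.ModEq.of_dvd (orderOf_dvd_natCard z) ?_)
    exact ((Nat.mod_modEq _ _).of_dvd (Dvd.intro_left 2 rfl)).mul (choose_two_mod _ _)
  -- letter `a`
  have h3 := (PP_choose a {c} (by simpa using ha) z).inv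
  refine (hH.comp2 h3 (fun x y => x * y)).congr fun w => ?_
  rw [← Y_mul]
  congr 1
  funext b N
  simp only [only, H, Pi.add_apply, Pi.single_apply, Finset.sum_singleton]
  by_cases hbc : b = c
  · subst hbc
    simp only [ha, if_false, if_true, (Ne.symm ha), add_zero, mul_one]
    rw [choose_two_add]
    simp only [Nat.choose_succ_self, mul_one, Nat.choose_one_right]
    rw [← div_eq_mul_inv, div_eq_iff_eq_mul, ← pow_add]
    congr 1
    simp
    ring
  · by_cases hba : b = a
    · subst hba
      simp only [if_true, hbc, if_false, (Ne.symm hbc), add_zero]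
      rw [add_mul, pow_add, one_mul, mul_comm (z ^ _) (z ^ (N c).choose 2), mul_assoc,
        mul_assoc, mul_inv_cancel_left, mul_inv_cancel]
    · simp [hbc, hba, Ne.symm hbc, Ne.symm hba]

end Vale.Agent.P329
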