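import Vale.Agent.Lib.P329.Closure

namespace Vale.Agent.P329

universe u
variable {α : Type u} {Q : Type*}

/-- Reading a word. -/
def run (step : Q → α → Q) : Q → List α → Q
  | i, [] => i
  | i, a :: w => run step (step i a) w

/-- All states visited after at least one letter satisfy `T`. -/
def inT (step : Q → α → Q) (T : Q → Prop) : Q → List α → Prop
  | _, [] => True
  | i, a :: w => T (step i a) ∧ inT step T (step i a) w

lemma run_append (step : Q → α → Q) (i : Q) (x y : List α) :
    run step i (x ++ y) = run step (run step i x) y := by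
  induction x generalizing i with
  | nil => rfl
  | cons a x ih => exact ih _

lemma inT_append (step : Q → α → Q) (T : Q → Prop) (i : Q) (x y : List α) :
    inT step T i (x ++ y) ↔ inT step T i x ∧ inT step T (run step i x) y := by
  induction x generalizing i with
  | nil => simp [inT, run]
  | cons a x ih => simp [inT, run, ih, and_assoc]

lemma inT_mono (step : Q → α → Q) {T T' : Q → Prop} (h : ∀ q, T q → T' q) (i : Q)
    (x : List α) : inT step T i x → inT step T' i x := by
  induction x generalizing i with
  | nil => intro _; trivial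
  | cons a x ih => rintro ⟨h1, h2⟩; exact ⟨h _ h1, ih _ h2⟩

lemma inT_last (step : Q → α → Q) {T : Q → Prop} (i : Q) (x : List α) (hi : T i)
    (h : inT step T i x) : T (run step i x) := by
  induction x generalizing i with
  | nil => exact hi
  | cons a x ih => exact ih _ h.1 h.2

/-- Paths from `i` to `j` whose later states satisfy `T`. -/
def Path (step : Q → α → Q) (T : Q → Prop) (i j : Q) : Set (List α) :=
  {w | inT step T i w ∧ run step i w = j}

/-- Nonempty paths from `i` to `h` whose intermediate states differ from `h`. -/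
def Ret (step : Q → α → Q) (h i : Q) : Set (List α) :=
  {w | ∃ x a, inT step (fun q => q ≠ h) i x ∧ step (run step i x) a = h ∧ w = x ++ [a]}

lemma Ret_run {step : Q → α → Q} {h i : Q} {w : List α} (hw : w ∈ Ret step h i) :
    run step i w = h := by
  obtain ⟨x, a, _, h2, rfl⟩ := hw
  rw [run_append]
  exact h2

lemma Star_run {step : Q → α → Q} {h : Q} {w : List α} (hw : w ∈ Star (Ret step h h)) :
    run step h w = h := by
  obtain ⟨S, rfl, hS⟩ := hw
  induction S with
  | nil => rfl
  | cons y S ih =>
    rw [List.flatten_cons, run_append, Ret_run (hS y (by simp))]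
    exact ih fun z hz => hS z (by simp [hz])

lemma nil_mem_Star (L : Set (List α)) : [] ∈ Star L := ⟨[], rfl, by simp⟩

lemma cons_mem_Star {L : Set (List α)} {x y : List α} (hx : x ∈ L) (hy : y ∈ Star L) :
    x ++ y ∈ Star L := by
  obtain ⟨S, rfl, hS⟩ := hy
  refine ⟨x :: S, rfl, fun z hz => ?_⟩
  rcases List.mem_cons.1 hz with rfl | hz
  · exact hx
  · exact hS z hz

lemma hub_decomp (step : Q → α → Q) (h i j : Q) (w : List α) :
    run step i w = j ↔ (w ∈ Path step (fun q => q ≠ h) i j ∨
      w ∈ Cat (Ret step h i) (Cat (Star (Ret step h h)) (Path step (fun q => q ≠ h) h j))) := by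
  constructor
  · induction w generalizing i with
    | nil =>
      intro hw
      exact Or.inl ⟨trivial, hw⟩
    | cons a w ih =>
      intro hw
      have ih' := ih (step i a) hw
      by_cases hh : step i a = h
      · right
        rw [hh] at ih'
        have ha : [a] ∈ Ret step h i := ⟨[], a, trivial, hh, rfl⟩
        rcases ih' with ih' | ih'
        · exact ⟨[a], w, ha, ⟨[], w, nil_mem_Star _, ih', rfl⟩, rfl⟩
        · obtain ⟨x, y, hx, ⟨s, z, hs, hz, rfl⟩, rfl⟩ := ih'
          refine ⟨[a], x ++ (s ++ z), ha, ⟨x ++ s, z, cons_mem_Star hx hs, hz, ?_⟩, rfl⟩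
          simp
      · rcases ih' with ih' | ih'
        · exact Or.inl ⟨⟨hh, ih'.1⟩, ih'.2⟩
        · right
          obtain ⟨x, y, ⟨x', b, h1, h2, rfl⟩, hy, rfl⟩ := ih'
          exact ⟨a :: (x' ++ [b]), y, ⟨a :: x', b, ⟨hh, h1⟩, h2, rfl⟩, hy, rfl⟩
  · rintro (hw | hw)
    · exact hw.2
    · obtain ⟨x, y, hx, ⟨s, z, hs, hz, rfl⟩, rfl⟩ := hw
      rw [run_append, run_append, Ret_run hx, Star_run hs]
      exact hz.2

/-- If all hub-avoiding path languages are star-free, the path languages have height `≤ 1`. -/
lemma Ht_run [Finite α] [Finite Q] (step : Q → α → Q) (h : Q)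
    (H : ∀ i j, Ht 0 (Path step (fun q => q ≠ h) i j)) (i j : Q) :
    Ht 1 {w : List α | run step i w = j} := by
  have hR : ∀ i, Ht 0 (Ret step h i) := by
    intro i
    refine (Ht_exists (fun t : Q => Cat (Path step (fun q => q ≠ h) i t)
      {w : List α | ∃ a, step t a = h ∧ w = [a]})
      fun t => (H i t).cat (Ht_letters 0 _)).congr fun w => ?_
    constructor
    · rintro ⟨t, x, y, ⟨h1, h2⟩, ⟨a, ha, rfl⟩, rfl⟩
      exact ⟨x, a, h1, by rw [h2]; exact ha, rfl⟩
    · rintro ⟨x, a, h1, h2, rfl⟩
      exact ⟨run step i x, x, [a], ⟨h1, rfl⟩, ⟨a, h2, rfl⟩, rfl⟩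
  refine ((((H i j).mono zero_le_one).union (((hR i).mono zero_le_one).cat
    ((hR h).star.cat ((H h j).mono zero_le_one))))).congr fun w => ?_
  exact (hub_decomp step h i j w).symm

/-- Block decomposition: transitions outside the hub never decrease the rank, and the walks
inside each rank class are star-free. -/
lemma Ht_path_of_rank [Finite α] [Finite Q] (step : Q → α → Q) (h : Q) (r : Q → ℕ)
    (hr : ∀ i a, i ≠ h → step i a ≠ h → r i ≤ r (step i a))
    (hW : ∀ i j, i ≠ h → Ht 0 (Path step (fun q => q ≠ h ∧ r q = r i) i j)) (i j : Q) :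
    Ht 0 (Path step (fun q => q ≠ h) i j) := by
  classical
  obtain ⟨B, hB⟩ : ∃ B, ∀ q, r q ≤ B := by
    haveI := Fintype.ofFinite Q
    exact ⟨Finset.univ.sup r, fun q => Finset.le_sup (Finset.mem_univ q)⟩
  have main : ∀ n, ∀ i, i ≠ h → B - r i ≤ n → Ht 0 (Path step (fun q => q ≠ h) i j) := by
    intro n
    induction n using Nat.strong_induction_on with
    | _ n ih =>
      intro i hi hn
      have hdec : ∀ w, w ∈ Path step (fun q => q ≠ h) i j ↔
          w ∈ {w | ∃ t : Q, w ∈ {w | (t = j) ∧ w ∈ Path step (fun q => q ≠ h ∧ r q = r i) i t}} ∪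
            {w | ∃ p : Q × α, w ∈ {w | (step p.1 p.2 ≠ h ∧ r i < r (step p.1 p.2)) ∧
              w ∈ Cat (Path step (fun q => q ≠ h ∧ r q = r i) i p.1)
                (Cat {w | w = [p.2]} (Path step (fun q => q ≠ h) (step p.1 p.2) j))}} := by
        intro w
        constructor
        · rintro ⟨h1, h2⟩
          clear hn
          have gen : ∀ (w : List α) (i' : Q), i' ≠ h → r i' = r i →
              inT step (fun q => q ≠ h) i' w → run step i' w = j →
              (inT step (fun q => q ≠ h ∧ r q = r i) i' w) ∨
              ∃ (t : Q) (a : α) (x y : List α), w = x ++ a :: y ∧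
                inT step (fun q => q ≠ h ∧ r q = r i) i' x ∧ run step i' x = t ∧
                step t a ≠ h ∧ r i < r (step t a) ∧
                inT step (fun q => q ≠ h) (step t a) y ∧ run step (step t a) y = j := by
            intro w
            induction w with
            | nil => intro i' _ _ _ _; exact Or.inl trivial
            | cons a w ihw =>
              intro i' hi' hri' h1 h2
              have hle := hr i' a hi' h1.1
              rcases Nat.eq_or_lt_of_le hle with heq | hlt
              · rcases ihw (step i' a) h1.1 (heq.symm.trans hri') h1.2 h2 with h3 | h3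
                · exact Or.inl ⟨⟨h1.1, heq.symm.trans hri'⟩, h3⟩
                · obtain ⟨t, b, x, y, rfl, hx, ht, h4⟩ := h3
                  exact Or.inr ⟨t, b, a :: x, y, rfl,
                    ⟨⟨h1.1, heq.symm.trans hri'⟩, hx⟩, ht, h4⟩
              · exact Or.inr ⟨i', a, [], w, rfl, trivial, rfl, h1.1, hri' ▸ hlt, h1.2, h2⟩
          rcases gen w i hi rfl h1 h2 with h3 | ⟨t, a, x, y, rfl, hx, ht, h4, h5, h6, h7⟩
          · exact Or.inl ⟨j, rfl, h3, h2⟩
          · exact Or.inr ⟨(t, a), ⟨h4, h5⟩, x, a :: y, ⟨hx, ht⟩, ⟨[a], y, rfl, ⟨h6, h7⟩, rfl⟩, rfl⟩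
        · rintro (⟨t, rfl, h1, h2⟩ | ⟨⟨t, a⟩, ⟨h1, _⟩, x, y, ⟨h2, h3⟩, ⟨u, z, hu, ⟨h4, h5⟩, rfl⟩, rfl⟩)
          · exact ⟨inT_mono step (fun q hq => hq.1) _ _ h1, h2⟩
          · have hu' : u = [a] := hu
            subst hu'
            simp only at h1 h3 h4 h5
            refine ⟨?_, ?_⟩
            · rw [inT_append]
              refine ⟨inT_mono step (fun q hq => hq.1) _ _ h2, ?_⟩
              rw [h3]
              exact ⟨h1, h4⟩
            · rw [run_append, h3]
              exact h5
      refine Ht.congr ?_ fun w => (hdec w).symm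
      refine (Ht_exists _ fun t => Ht_and _ fun _ => hW i t hi).union
        (Ht_exists _ fun p => Ht_and _ fun hp => ?_)
      refine (hW i p.1 hi).cat ((Ht_letter 0 p.2).cat ?_)
      have h1 := hB (step p.1 p.2)
      exact ih (B - r (step p.1 p.2)) (by omega) _ hp.1 le_rfl
  by_cases hi : i = h
  · subst hi
    refine Ht.congr (L := {w | (i = j) ∧ w ∈ {w : List α | w = []}} ∪
      {w | ∃ a : α, w ∈ {w | step i a ≠ i ∧ w ∈ Cat {w | w = [a]}
        (Path step (fun q => q ≠ i) (step i a) j)}}) ?_ ?_
    · exact (Ht_and _ fun _ => Ht_nil 0).union (Ht_exists _ fun a => Ht_and _ fun ha =>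
        (Ht_letter 0 a).cat (main (B - r (step i a)) _ ha le_rfl))
    · intro w
      constructor
      · rintro (⟨rfl, hw⟩ | ⟨a, ha, x, y, hx, ⟨h1, h2⟩, rfl⟩)
        · have hw' : w = [] := hw
          subst hw'
          exact ⟨trivial, rfl⟩
        · have hx' : x = [a] := hx
          subst hx'
          exact ⟨⟨ha, h1⟩, h2⟩
      · rintro ⟨h1, h2⟩
        cases w with
        | nil => exact Or.inl ⟨h2, rfl⟩
        | cons a w => exact Or.inr ⟨a, h1.1, [a], w, rfl, ⟨h1.2, h2⟩, rfl⟩
  · exact main (B - r i) i hi le_rfl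

/-- Monotone automata: outside the hub every letter fixes the state, raises the rank or leads
to the hub. -/
lemma Ht_run_of_monotone [Finite α] [Finite Q] (step : Q → α → Q) (h : Q) (r : Q → ℕ)
    (hr : ∀ i a, i ≠ h → step i a = i ∨ step i a = h ∨ r i < r (step i a)) (i j : Q) :
    Ht 1 {w : List α | run step i w = j} := by
  refine Ht_run step h (fun i j => Ht_path_of_rank step h r (fun i a hi hs => ?_)
    (fun i j hi => ?_) i j) i j
  · rcases hr i a hi with h1 | h1 | h1
    · rw [h1]
    · exact absurd h1 hs
    · exact h1.le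
  · refine Ht.congr (L := {w | (i = j) ∧ w ∈ {w : List α | ∀ a ∈ w, step i a = i}})
      (Ht_and _ fun _ => Ht_all 0 _) fun w => ?_
    have key : ∀ w : List α, inT step (fun q => q ≠ h ∧ r q = r i) i w ↔
        ∀ a ∈ w, step i a = i := by
      intro w
      induction w with
      | nil => simp [inT]
      | cons a w ih =>
        constructor
        · rintro ⟨⟨h1, h2⟩, h3⟩
          have hs : step i a = i := by
            rcases hr i a hi with h4 | h4 | h4
            · exact h4
            · exact absurd h4 h1
            · omega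
          rw [hs] at h3
          intro b hb
          rcases List.mem_cons.1 hb with rfl | hb
          · exact hs
          · exact ih.1 h3 b hb
        · intro hw
          have hs : step i a = i := hw a (by simp)
          refine ⟨?_, ?_⟩
          · rw [hs]; exact ⟨hi, rfl⟩
          · rw [hs]; exact ih.2 fun b hb => hw b (by simp [hb])
    have runk : ∀ w : List α, (∀ a ∈ w, step i a = i) → run step i w = i := by
      intro w
      induction w with
      | nil => intro _; rfl
      | cons a w ih =>
        intro hw
        have hs : step i a = i := hw a (by simp)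
        change run step (step i a) w = i
        rw [hs]
        exact ih fun b hb => hw b (by simp [hb])
    constructor
    · rintro ⟨rfl, hw⟩
      exact ⟨(key w).2 hw, runk w hw⟩
    · rintro ⟨h1, h2⟩
      have h3 := (key w).1 h1
      exact ⟨(runk w h3).symm.trans h2, h3⟩

end Vale.Agent.P329
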