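import Mathlib

/-! Commutator identities in groups of nilpotency class at most three. -/

namespace Vale.Agent.P329

open scoped commutatorElement

variable {G : Type*} [Group G]

/-- commutators with elements of the commutator subgroup are central -/
def Cl3 (G : Type*) [Group G] : Prop :=
  ∀ z ∈ commutator G, ∀ g h : G, h * ⁅g, z⁆ = ⁅g, z⁆ * h

lemma cl3_of_lcs (h : Subgroup.lowerCentralSeries (⊤ : Subgroup G) 3 = ⊥) : Cl3 G := by
  intro z hz g k
  have h1 : z ∈ Subgroup.lowerCentralSeries (⊤ : Subgroup G) 1 := by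
    rw [Subgroup.top_lowerCentralSeries_one]; exact hz
  have h2 : ⁅z, g⁆ ∈ Subgroup.lowerCentralSeries (⊤ : Subgroup G) 2 :=
    Subgroup.commutator_mem_commutator h1 (Subgroup.mem_top g)
  have h3 : ⁅⁅z, g⁆, k⁆ ∈ Subgroup.lowerCentralSeries (⊤ : Subgroup G) 3 :=
    Subgroup.commutator_mem_commutator h2 (Subgroup.mem_top k)
  rw [h, Subgroup.mem_bot, commutatorElement_eq_one_iff_mul_comm] at h3
  have h4 : ⁅g, z⁆ = ⁅z, g⁆⁻¹ := (commutatorElement_inv z g).symm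
  rw [h4, eq_inv_mul_iff_mul_eq, ← mul_assoc, h3, mul_assoc, mul_inv_cancel, mul_one]

lemma comm_mem (g h : G) : ⁅g, h⁆ ∈ commutator G :=
  Subgroup.commutator_mem_commutator (Subgroup.mem_top g) (Subgroup.mem_top h)

lemma comm_mul_left (g h k : G) : ⁅g * h, k⁆ = g * ⁅h, k⁆ * g⁻¹ * ⁅g, k⁆ := by
  simp only [commutatorElement_def]
  group

variable (hG : Cl3 G)
include hG

lemma Cl3.left_mul {z : G} (hz : z ∈ commutator G) (g h : G) :
    ⁅g * h, z⁆ = ⁅g, z⁆ * ⁅h, z⁆ := by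
  rw [comm_mul_left, hG z hz h g, mul_assoc ⁅h, z⁆, mul_inv_cancel, mul_one, hG z hz g ⁅h, z⁆]

lemma Cl3.left_pow {z : G} (hz : z ∈ commutator G) (g : G) (n : ℕ) :
    ⁅g ^ n, z⁆ = ⁅g, z⁆ ^ n := by
  induction n with
  | zero => simp
  | succ n ih => rw [pow_succ, hG.left_mul hz, ih, pow_succ]

lemma Cl3.left_inv {z : G} (hz : z ∈ commutator G) (g : G) : ⁅g⁻¹, z⁆ = ⁅g, z⁆⁻¹ := by
  rw [eq_inv_iff_mul_eq_one, ← hG.left_mul hz, inv_mul_cancel, commutatorElement_one_left]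

lemma Cl3.right_mul {z z' : G} (hz' : z' ∈ commutator G) (g : G) :
    ⁅g, z * z'⁆ = ⁅g, z⁆ * ⁅g, z'⁆ := by
  have h1 := hG z' hz' g (g * z * g⁻¹)
  have h2 : ⁅g, z * z'⁆ = (g * z * g⁻¹) * ⁅g, z'⁆ * z⁻¹ := by
    simp only [commutatorElement_def]
    group
  have h3 := hG z' hz' g (g * z * g⁻¹ * z⁻¹)
  have h4 := hG z' hz' g z⁻¹
  rw [h2, mul_assoc, ← h4, ← mul_assoc]
  rfl

/-- the commutator subgroup is commutative -/
lemma Cl3.comm {y z : G} (hy : y ∈ commutator G) (hz : z ∈ commutator G) : y * z = z * y := by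
  rw [← commutatorElement_eq_one_iff_mul_comm]
  rw [commutator_eq_closure] at hy
  induction hy using Subgroup.closure_induction with
  | mem x hx =>
    obtain ⟨a, b, rfl⟩ := hx
    rw [commutatorElement_def a b, hG.left_mul hz, hG.left_mul hz, hG.left_mul hz,
      hG.left_inv hz, hG.left_inv hz, ← hG z hz a ⁅b, z⁆]
    group
  | one => simp
  | mul a b _ _ ha hb => rw [hG.left_mul hz, ha, hb, one_mul]
  | inv a _ ha => rw [hG.left_inv hz, ha, inv_one]

/-- central elements -/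
lemma Cl3.right_central {z z' : G} (hz : ∀ h, h * z = z * h) (hz' : z' ∈ commutator G) (g : G) :
    ⁅g, z * z'⁆ = ⁅g, z'⁆ := by
  rw [hG.right_mul hz', commutatorElement_eq_one_iff_mul_comm.2 (hz g), one_mul]

lemma Cl3.pow_comm (g y x : G) (n : ℕ) : ⁅g, ⁅y ^ n, x⁆⁆ = ⁅g, ⁅y, x⁆⁆ ^ n := by
  induction n with
  | zero => simp
  | succ n ih =>
    have h1 : ⁅y ^ (n + 1), x⁆ = ⁅y, ⁅y ^ n, x⁆⁆ * (⁅y ^ n, x⁆ * ⁅y, x⁆) := by
      rw [pow_succ', comm_mul_left]
      simp only [commutatorElement_def]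
      group
    rw [h1, hG.right_central (hG _ (comm_mem _ _) y)
      (Subgroup.mul_mem _ (comm_mem _ _) (comm_mem _ _)), hG.right_mul (comm_mem _ _), ih,
      pow_succ]

end Vale.Agent.P329
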