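import Vale.Agent.Lib.P329.Count
import Vale.Agent.Lib.P329.NilGrp

/-! Languages recognized by finite nilpotent groups of class at most three. -/

namespace Vale.Agent.P329

open scoped commutatorElement

universe u
variable {α : Type u} [DecidableEq α] {G : Type*} [Group G]

/-- ordered product of powers -/
def sL (x : α → G) (L : List α) (N : α → ℕ) : G := (L.map fun a => x a ^ N a).prod

lemma sL_cons (x : α → G) (a : α) (L : List α) (N : α → ℕ) :
    sL x (a :: L) N = x a ^ N a * sL x L N := by
  simp [sL]

lemma sL_single (x : α → G) (c : α) (L : List α) (hc : c ∉ L) (N : α → ℕ) :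
    sL x L (N + Pi.single c 1) = sL x L N := by
  unfold sL
  congr 1
  refine List.map_congr_left fun a ha => ?_
  have h : a ≠ c := fun h => hc (h ▸ ha)
  simp [Pi.single_apply, h]

section
variable {A : Type*} [CommGroup A] [Finite A] (ι : A →* G)

/-- product over the letter `c` recognizable, and linear modulo the centre -/
def Fm (x : α → G) (c : α) (L : List α) (f : (α → ℕ) → A) : Prop :=
  PP c f ∧ ∃ M : List α, (∀ b ∈ M, b ∈ L ∧ b ≠ c) ∧
    ∀ (g : G) (N : α → ℕ), ⁅g, ι (f N)⁆ = (M.map fun b => ⁅g, ⁅x b, x c⁆⁆ ^ N b).prod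

lemma PP_list (c : α) (M : List α) (f : α → (α → ℕ) → A) (h : ∀ b ∈ M, PP c (f b)) :
    PP c (fun N => (M.map fun b => f b N).prod) := by
  induction M with
  | nil => exact PP_one c
  | cons b M ih =>
    refine ((h b (by simp)).mul (ih fun b hb => h b (by simp [hb]))).congr fun N => ?_
    simp

variable {ι}

lemma Fm.conj [Finite α] (hG : Cl3 G) (hι : ∀ g, g ∈ commutator G ↔ ∃ z, ι z = g)
    {x : α → G} {c : α} {L : List α} {f : (α → ℕ) → A} (hf : Fm ι x c L f) (a : α)
    (ha : a ∉ L) :
    ∃ f' : (α → ℕ) → A, (∀ N, ι (f' N) = x a ^ N a * ι (f N) * (x a ^ N a)⁻¹) ∧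
      Fm ι x c (a :: L) f' := by
  obtain ⟨hP, M, hM, hform⟩ := hf
  have hz : ∀ b : α, ∃ z : A, ι z = ⁅x a, ⁅x b, x c⁆⁆ := fun b => (hι _).1 (comm_mem _ _)
  choose z hz using hz
  have hin : ∀ N, ι (f N) ∈ commutator G := fun N => (hι _).2 ⟨_, rfl⟩
  have h1 : ∀ N, ι ((M.map fun b => z b ^ (N a * N b)).prod) = ⁅x a ^ N a, ι (f N)⁆ := by
    intro N
    rw [map_list_prod, List.map_map, hform]
    congr 1
    refine List.map_congr_left fun b _ => ?_
    rw [Function.comp_apply, map_pow, hz, hG.left_pow (comm_mem _ _), pow_mul]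
  refine ⟨fun N => (M.map fun b => z b ^ (N a * N b)).prod * f N, ?_, ?_, M, ?_, ?_⟩
  · intro N
    rw [map_mul, h1, commutatorElement_def]
    group
  · refine PP.mul (PP_list c M (fun b N => z b ^ (N a * N b)) fun b hb => ?_) hP
    have hab : a ≠ b := fun h => ha (h ▸ (hM b hb).1)
    by_cases hac : a = c
    · subst hac
      refine (PP_ac a b hab.symm (z b)).congr fun N => ?_
      rw [mul_comm]
    · exact PP_ab c a b hab hac (hM b hb).2 (z b)
  · intro b hb
    exact ⟨List.mem_cons_of_mem _ (hM b hb).1, (hM b hb).2⟩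
  · intro g N
    rw [map_mul, h1, hG.right_central (hG _ (hin N) _) (hin N), hform]

lemma Fm_inv [Finite α] [Finite G] (hG : Cl3 G) (hι : ∀ g, g ∈ commutator G ↔ ∃ z, ι z = g)
    (x : α → G) (L : List α) (hL : L.Nodup) :
    (∀ c, c ∉ L → ∃ f : (α → ℕ) → A, (∀ N, ι (f N) = ⁅sL x L N, x c⁆) ∧ Fm ι x c L f) ∧
    (∀ c ∈ L, ∃ f : (α → ℕ) → A,
      (∀ N, ι (f N) = sL x L N * x c * (sL x L (N + Pi.single c 1))⁻¹) ∧ Fm ι x c L f) := by
  induction L with
  | nil =>
    refine ⟨fun c _ => ⟨fun _ => 1, fun N => ?_, PP_one c, [], by simp, ?_⟩, by simp⟩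
    · simp [sL]
    · intro g N
      simp
  | cons a L ih =>
    have haL : a ∉ L := (List.nodup_cons.1 hL).1
    obtain ⟨ih1, ih2⟩ := ih (List.nodup_cons.1 hL).2
    refine ⟨fun c hc => ?_, fun c hc => ?_⟩
    · have hca : c ≠ a := fun h => hc (by simp [h])
      have hcL : c ∉ L := fun h => hc (by simp [h])
      obtain ⟨f, hf1, hf2⟩ := ih1 c hcL
      obtain ⟨f', hf1', hP', M, hM, hform⟩ := hf2.conj hG hι a haL
      haveI : NeZero (orderOf (x a)) := ⟨(orderOf_pos _).ne'⟩
      have hg : ∀ t : ZMod (orderOf (x a)), ∃ z : A, ι z = ⁅x a ^ t.val, x c⁆ :=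
        fun t => (hι _).1 (comm_mem _ _)
      choose g1 hg1 using hg
      have hg2 : ∀ k : ℕ, ι (g1 (k : ZMod (orderOf (x a)))) = ⁅x a ^ k, x c⁆ := by
        intro k
        rw [hg1, ZMod.val_natCast, pow_mod_orderOf]
      refine ⟨fun N => f' N * g1 ((∑ b ∈ {a}, N b : ℕ) : ZMod (orderOf (x a))), ?_, ?_,
        M ++ [a], ?_, ?_⟩
      · intro N
        rw [map_mul, Finset.sum_singleton, hg2, hf1', hf1, sL_cons, comm_mul_left]
      · exact hP'.mul (PP_base c {a} (by simpa using hca) _ g1)
      · intro b hb
        rcases List.mem_append.1 hb with hb | hb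
        · exact hM b hb
        · rw [List.mem_singleton] at hb
          subst hb
          exact ⟨by simp, hca.symm⟩
      · intro g N
        rw [map_mul, Finset.sum_singleton, hg2, hG.right_mul (comm_mem _ _), hform,
          hG.pow_comm, List.map_append, List.prod_append]
        simp
    · by_cases hca : c = a
      · subst hca
        obtain ⟨f, hf1, hf2⟩ := ih1 c haL
        obtain ⟨f', hf1', hf2'⟩ := hf2.conj hG hι c haL
        refine ⟨f', fun N => ?_, hf2'⟩
        rw [hf1', hf1, sL_cons, sL_cons, sL_single x c L haL]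
        have h1 : (N + Pi.single c 1 : α → ℕ) c = N c + 1 := by simp
        rw [h1, commutatorElement_def, pow_succ]
        group
      · have hcL : c ∈ L := by
          rcases List.mem_cons.1 hc with h | h
          · exact absurd h hca
          · exact h
        obtain ⟨f, hf1, hf2⟩ := ih2 c hcL
        obtain ⟨f', hf1', hf2'⟩ := hf2.conj hG hι a haL
        refine ⟨f', fun N => ?_, hf2'⟩
        rw [hf1', hf1, sL_cons, sL_cons]
        have h1 : (N + Pi.single c 1 : α → ℕ) a = N a := by
          simp [Pi.single_apply, Ne.symm hca]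
        rw [h1]
        group

lemma Rc_only [Finite α] (ψ : α → (α → ℕ) → A) (h : ∀ c, PP c (ψ c)) :
    Rc (fun w => Y ψ 0 w) := by
  haveI := Fintype.ofFinite α
  have key : ∀ s : Finset α, Rc (fun w => Y (fun a N => ∏ c ∈ s, only c (ψ c) a N) 0 w) := by
    intro s
    induction s using Finset.induction_on with
    | empty =>
      refine (Rc_const (1 : A)).congr fun w => ?_
      simp only [Finset.prod_empty]
      rw [Y_one]
    | insert c s hc ih =>
      refine ((h c).comp2 ih (fun x y => x * y)).congr fun w => ?_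
      rw [← Y_mul]
      congr 1
      funext a N
      rw [Finset.prod_insert hc]
  refine (key Finset.univ).congr fun w => ?_
  congr 1
  funext a N
  simp [only]

end

/-- All languages recognized by a finite nilpotent group of class at most three. -/
theorem GoodG_nil [Finite α] [Finite G] (hG : Cl3 G) (x : α → G) : GoodG x := by
  haveI := Fintype.ofFinite α
  let A := ↥(commutator G)
  letI : CommGroup A :=
    { (inferInstance : Group ↥(commutator G)) with
      mul_comm := fun y z => Subtype.ext (hG.comm y.2 z.2) }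
  let ι : A →* G :=
    { toFun := fun z => (z : G)
      map_one' := rfl
      map_mul' := fun _ _ => rfl }
  have hι : ∀ g, g ∈ commutator G ↔ ∃ z, ι z = g :=
    fun g => ⟨fun h => ⟨⟨g, h⟩, rfl⟩, fun ⟨z, hz⟩ => hz ▸ z.2⟩
  set L : List α := Finset.univ.toList
  have hLm : ∀ c, c ∈ L := fun c => Finset.mem_toList.2 (Finset.mem_univ c)
  have hL := (Fm_inv hG hι x L (Finset.nodup_toList _)).2
  choose f hf1 hf2 using fun c => hL c (hLm c)
  have hR : Rc (fun w => Y f 0 w) := Rc_only f fun c => (hf2 c).1
  -- main identity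
  have main : ∀ (w : List α) (N : α → ℕ),
      sL x L N * (w.map x).prod = ι (Y f N w) * sL x L (N + fun b => w.count b) := by
    intro w
    induction w with
    | nil =>
      intro N
      have : (N + fun b => List.count b ([] : List α)) = N := by funext b; simp
      rw [this]
      simp [Y]
    | cons a w ih =>
      intro N
      have h1 : (N + Pi.single a 1 + fun b => w.count b) = N + fun b => (a :: w).count b := by
        funext b
        simp only [Pi.add_apply, Pi.single_apply, List.count_cons]
        by_cases h : b = a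
        · subst h; simp; ring
        · have h' : (a == b) = false := by simpa using (Ne.symm h)
          simp [h, h']
      rw [Y, map_mul, hf1, List.map_cons, List.prod_cons, mul_assoc, ← h1, ← ih]
      group
  set M := Nat.card G with hM
  haveI : NeZero M := ⟨Nat.card_pos.ne'⟩
  have hC : Rc (fun (w : List α) (a : α) => ((w.count a : ℕ) : ZMod M)) :=
    Rc.pi fun a x => Ht_count M a x
  have hS : Rc (fun w : List α => sL x L (fun b => w.count b)) := by
    refine (hC.comp (fun y => sL x L (fun b => (y b).val))).congr fun w => ?_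
    unfold sL
    congr 1
    refine List.map_congr_left fun a _ => ?_
    show x a ^ ((w.count a : ℕ) : ZMod M).val = x a ^ w.count a
    rw [ZMod.val_natCast]
    exact (pow_eq_pow_mod _ pow_card_eq_one').symm
  refine (hR.comp2 hS (fun y s => ι y * s)).congr fun w => ?_
  have h2 := main w 0
  have h3 : sL x L 0 = 1 := by
    unfold sL
    simp
  rw [h3, one_mul, zero_add] at h2
  exact h2.symm

end Vale.Agent.P329
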