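import Vale.Agent.Lib.P329.NilMain

namespace Vale.Agent.P329

universe u
variable {α : Type u}

/-- Groups that embed in a product of copies of the alternating group of degree four and a
finite nilpotent group of class at most three. -/
theorem Ht_group_nil [Finite α] {G : Type*} [Group G] {k : ℕ} {N : Type*} [Group N] [Finite N]
    [Group.IsNilpotent N] (hN : Group.nilpotencyClass N ≤ 3)
    (f : G →* (Fin k → alternatingGroup (Fin 4)) × N) (hf : Function.Injective f) (φ : α → G)
    (S : Set G) : Ht 1 {w : List α | (w.map φ).prod ∈ S} := by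
  classical
  haveI : Finite G := Finite.of_injective f hf
  have hC : Cl3 N := cl3_of_lcs (Subgroup.lowerCentralSeries_eq_bot_iff_nilpotencyClass_le.2 hN)
  have hg : GoodG φ := by
    intro g
    have h1 : ∀ i : Fin k, Ht 1 {w : List α | (w.map fun a => (f (φ a)).1 i).prod = (f g).1 i} :=
      fun i => GoodG_alt (fun a => (f (φ a)).1 i) _
    have h2 : Ht 1 {w : List α | (w.map fun a => (f (φ a)).2).prod = (f g).2} :=
      GoodG_nil hC (fun a => (f (φ a)).2) _
    refine ((Ht_forall _ h1).inter h2).congr fun w => ?_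
    have e1 : ∀ i : Fin k, (w.map fun a => (f (φ a)).1 i).prod = (f (w.map φ).prod).1 i :=
      fun i => map_prod_list (((Pi.evalMonoidHom _ i).comp (MonoidHom.fst _ _)).comp f) φ w
    have e2 : (w.map fun a => (f (φ a)).2).prod = (f (w.map φ).prod).2 :=
      map_prod_list ((MonoidHom.snd _ _).comp f) φ w
    simp only [Set.mem_inter_iff, Set.mem_setOf_eq, e1, e2]
    constructor
    · rintro ⟨h3, h4⟩
      exact hf (Prod.ext (funext h3) h4)
    · intro h3
      rw [h3]
      exact ⟨fun _ => rfl, rfl⟩
  refine (Ht_exists (fun g : G => {w | (g ∈ S) ∧ w ∈ {w : List α | (w.map φ).prod = g}})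
    fun g => Ht_and _ fun _ => hg g).congr fun w => ?_
  simp only [Set.mem_setOf_eq]
  constructor
  · rintro ⟨g, h1, rfl⟩
    exact h1
  · intro h1
    exact ⟨_, h1, rfl⟩

end Vale.Agent.P329
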