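import Vale.Agent.Lib.P329.Hub

/-! Recognizable functions of words: all level sets have generalized star height at most one. -/

namespace Vale.Agent.P329

universe u
variable {α : Type u}

/-- All level sets of `F` have height at most one. -/
def Rc {β : Type*} (F : List α → β) : Prop := ∀ b : β, Ht 1 {w : List α | F w = b}

lemma Rc.pair {β γ : Type*} {F : List α → β} {G : List α → γ} (hF : Rc F) (hG : Rc G) :
    Rc (fun w => (F w, G w)) := by
  rintro ⟨b, c⟩
  refine ((hF b).inter (hG c)).congr fun w => ?_
  simp [Prod.ext_iff]

lemma Rc.comp {β γ : Type*} [Finite β] {F : List α → β} (hF : Rc F) (g : β → γ) :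
    Rc (fun w => g (F w)) := by
  intro c
  refine (Ht_exists (fun b : β => {w | (g b = c) ∧ w ∈ {w : List α | F w = b}})
    fun b => Ht_and _ fun _ => hF b).congr fun w => ?_
  simp

lemma Rc.comp2 {β γ δ : Type*} [Finite β] [Finite γ] {F : List α → β} {G : List α → γ}
    (hF : Rc F) (hG : Rc G) (g : β → γ → δ) : Rc (fun w => g (F w) (G w)) :=
  (hF.pair hG).comp (fun p => g p.1 p.2)

lemma Rc_const {β : Type*} (b : β) : Rc (fun _ : List α => b) := by
  intro c
  refine (Ht_and (b = c) fun _ => Ht_univ 1).congr fun w => ?_
  simp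

lemma Rc.congr {β : Type*} {F G : List α → β} (hF : Rc F) (h : ∀ w, F w = G w) : Rc G := by
  have : F = G := funext h
  rwa [← this]

lemma Rc.pi {ι : Type*} [Finite ι] {β : ι → Type*} {F : ∀ i, List α → β i}
    (hF : ∀ i, Rc (F i)) : Rc (fun w i => F i w) := by
  intro b
  refine (Ht_forall (fun i => {w : List α | F i w = b i}) fun i => hF i (b i)).congr
    fun w => ?_
  simp [funext_iff]

section Counter

variable {n m : ℕ} [NeZero n] [NeZero m]

/-- the counting automaton: letters of `S` increase the position, with carry to the second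
coordinate; the letter `c` (if `b`) increases the second coordinate at position `0`. -/
def cstep (S : α → Prop) [DecidablePred S] (c : α → Prop) [DecidablePred c]
    (q : ZMod n × ZMod m) (a : α) : ZMod n × ZMod m :=
  if S a then (q.1 + 1, if q.1 + 1 = 0 then q.2 + 1 else q.2)
  else if c a then (q.1, if q.1 = 0 then q.2 + 1 else q.2) else q

/-- number of carries -/
def carr (S : α → Prop) [DecidablePred S] : ZMod n → List α → ZMod m
  | _, [] => 0
  | s, a :: w => if S a then (if s + 1 = 0 then 1 else 0) + carr S (s + 1) w else carr S s w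

/-- number of letters `c` read at position `0` -/
def cnt0 (S : α → Prop) [DecidablePred S] (c : α → Prop) [DecidablePred c] :
    ZMod n → List α → ZMod m
  | _, [] => 0
  | s, a :: w => if S a then cnt0 S c (s + 1) w else
      (if c a ∧ s = 0 then 1 else 0) + cnt0 S c s w

lemma run_cstep (S : α → Prop) [DecidablePred S] (c : α → Prop) [DecidablePred c]
    (w : List α) : ∀ (q : ZMod n × ZMod m),
    (run (cstep (n := n) (m := m) S c) q w).2 = q.2 + carr S q.1 w + cnt0 S c q.1 w := by
  induction w with
  | nil => intro q; simp [run, carr, cnt0]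
  | cons a w ih =>
    intro q
    rw [run, ih, carr, cnt0]
    by_cases hS : S a
    · by_cases h0 : q.1 + 1 = 0
      · simp only [cstep, hS, if_true, h0]
        ring
      · simp only [cstep, hS, if_true, h0, if_false]
        ring
    · by_cases hc : c a
      · by_cases h0 : q.1 = 0
        · simp only [cstep, hS, if_false, hc, if_true, h0, and_self]
          ring
        · simp only [cstep, hS, if_false, hc, if_true, h0, and_false]
          ring
      · simp only [cstep, hS, if_false, hc, false_and]
        ring

lemma val_succ {k : ℕ} [NeZero k] (x : ZMod k) (h : x + 1 ≠ 0) : (x + 1).val = x.val + 1 := by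
  have hlt := ZMod.val_lt x
  have hne : x.val + 1 ≠ k := by
    intro h'
    apply h
    have h2 : ((x.val + 1 : ℕ) : ZMod k) = 0 := by rw [h']; exact ZMod.natCast_self k
    rwa [Nat.cast_add, ZMod.natCast_zmod_val, Nat.cast_one] at h2
  have h3 : x + 1 = ((x.val + 1 : ℕ) : ZMod k) := by
    rw [Nat.cast_add, ZMod.natCast_zmod_val, Nat.cast_one]
  rw [h3, ZMod.val_natCast, Nat.mod_eq_of_lt (by omega)]

lemma val_pred {k : ℕ} [NeZero k] (x : ZMod k) (h : x + 1 = 0) : x.val + 1 = k := by
  have hlt := ZMod.val_lt x
  by_contra hne
  have h3 : x + 1 = ((x.val + 1 : ℕ) : ZMod k) := by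
    rw [Nat.cast_add, ZMod.natCast_zmod_val, Nat.cast_one]
  have h4 : (x + 1).val = x.val + 1 := by
    rw [h3, ZMod.val_natCast, Nat.mod_eq_of_lt (by omega)]
  rw [h, ZMod.val_zero] at h4
  omega

lemma Rc_run_cstep [Finite α] (S : α → Prop) [DecidablePred S] (c : α → Prop)
    [DecidablePred c] (q : ZMod n × ZMod m) :
    Rc (fun w => run (cstep (n := n) (m := m) S c) q w) := by
  intro j
  refine Ht_run_of_monotone (cstep S c) (0, 0) (fun q => q.1.val + n * q.2.val) ?_ q j
  rintro ⟨s, x⟩ a hq
  have hs := ZMod.val_lt s
  -- a step of the second coordinate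
  have hx : ∀ y : ZMod m, (y + 1 = 0) ∨ (y + 1).val = y.val + 1 := by
    intro y
    by_cases h : y + 1 = 0
    · exact Or.inl h
    · exact Or.inr (val_succ y h)
  by_cases hS : S a
  · by_cases h0 : s + 1 = 0
    · simp only [cstep, hS, if_true, h0]
      rcases hx x with h1 | h1
      · exact Or.inr (Or.inl (by rw [h1]))
      · refine Or.inr (Or.inr ?_)
        simp only [ZMod.val_zero, h1]
        rw [Nat.mul_add]
        omega
    · simp only [cstep, hS, if_true, h0, if_false]
      refine Or.inr (Or.inr ?_)
      rw [val_succ s h0]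
      omega
  · by_cases hc : c a
    · by_cases h0 : s = 0
      · simp only [cstep, hS, if_false, hc, if_true, h0]
        rcases hx x with h1 | h1
        · exact Or.inr (Or.inl (by rw [h1]))
        · refine Or.inr (Or.inr ?_)
          simp only [ZMod.val_zero, h1]
          rw [Nat.mul_add]
          have := NeZero.pos n
          omega
      · simp only [cstep, hS, if_false, hc, if_true, h0]
        exact Or.inl trivial
    · simp only [cstep, hS, if_false, hc]
      exact Or.inl trivial

lemma Rc_cnt0 [Finite α] (S : α → Prop) [DecidablePred S] (c : α → Prop)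
    [DecidablePred c] (s : ZMod n) : Rc (fun w => (cnt0 S c s w : ZMod m)) := by
  have h1 := (Rc_run_cstep (n := n) (m := m) S c (s, 0)).comp2
    (Rc_run_cstep (n := n) (m := m) S (fun _ => False) (s, 0)) (fun p q => p.2 - q.2)
  refine h1.congr fun w => ?_
  rw [run_cstep, run_cstep]
  have h2 : ∀ (w : List α) (s : ZMod n), (cnt0 S (fun _ => False) s w : ZMod m) = 0 := by
    intro w
    induction w with
    | nil => intro s; rfl
    | cons a w ih => intro s; simp [cnt0, ih]
  rw [h2]
  ring

end Counter

end Vale.Agent.P329
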