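import Vale.Agent.Lib.P329.Hub

namespace Vale.Agent.P329

universe u
variable {α : Type u} {Q : Type*}

/-- `w = x a y` with `p a` and `y ∈ L`. -/
def Fp (p : α → Prop) (L : Set (List α)) : List α → Prop
  | [] => False
  | a :: w => (p a ∧ w ∈ L) ∨ Fp p L w

lemma Fp_iff (p : α → Prop) (L : Set (List α)) (w : List α) :
    Fp p L w ↔ ∃ x a y, p a ∧ y ∈ L ∧ w = x ++ a :: y := by
  induction w with
  | nil => simp [Fp]
  | cons b w ih =>
    constructor
    · rintro (⟨h1, h2⟩ | h)
      · exact ⟨[], b, w, h1, h2, rfl⟩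
      · obtain ⟨x, a, y, h1, h2, rfl⟩ := ih.1 h
        exact ⟨b :: x, a, y, h1, h2, rfl⟩
    · rintro ⟨x, a, y, h1, h2, h3⟩
      cases x with
      | nil =>
        simp only [List.nil_append, List.cons.injEq] at h3
        obtain ⟨rfl, rfl⟩ := h3
        exact Or.inl ⟨h1, h2⟩
      | cons c x =>
        simp only [List.cons_append, List.cons.injEq] at h3
        obtain ⟨rfl, rfl⟩ := h3
        exact Or.inr (ih.2 ⟨x, a, y, h1, h2, rfl⟩)

lemma Ht_Fp [Finite α] (p : α → Prop) {L : Set (List α)} (hL : Ht 0 L) :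
    Ht 0 {w | Fp p L w} := by
  refine ((Ht_univ 0).cat ((Ht_letters 0 p).cat hL)).congr fun w => ?_
  simp only [Set.mem_setOf_eq, Fp_iff]
  constructor
  · rintro ⟨x, _, _, ⟨_, y, ⟨a, ha, rfl⟩, hy, rfl⟩, rfl⟩
    exact ⟨x, a, y, ha, hy, rfl⟩
  · rintro ⟨x, a, y, ha, hy, rfl⟩
    exact ⟨x, a :: y, trivial, ⟨[a], y, ⟨a, ha, rfl⟩, hy, rfl⟩, rfl⟩

/-- `w = x a y` with all letters of `x` satisfying `n` and `p a`. -/
def Yp (n p : α → Prop) : List α → Prop
  | [] => False
  | a :: w => p a ∨ (n a ∧ Yp n p w)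

lemma Yp_iff (n p : α → Prop) (w : List α) :
    Yp n p w ↔ ∃ x a y, (∀ b ∈ x, n b) ∧ p a ∧ w = x ++ a :: y := by
  induction w with
  | nil => simp [Yp]
  | cons b w ih =>
    constructor
    · rintro (h1 | ⟨h1, h⟩)
      · exact ⟨[], b, w, by simp, h1, rfl⟩
      · obtain ⟨x, a, y, h2, h3, rfl⟩ := ih.1 h
        refine ⟨b :: x, a, y, ?_, h3, rfl⟩
        intro c hc
        rcases List.mem_cons.1 hc with rfl | hc
        · exact h1
        · exact h2 c hc
    · rintro ⟨x, a, y, h1, h2, h3⟩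
      cases x with
      | nil =>
        simp only [List.nil_append, List.cons.injEq] at h3
        obtain ⟨rfl, rfl⟩ := h3
        exact Or.inl h2
      | cons c x =>
        simp only [List.cons_append, List.cons.injEq] at h3
        obtain ⟨rfl, rfl⟩ := h3
        exact Or.inr ⟨h1 _ (by simp), ih.2 ⟨x, a, y, fun d hd => h1 d (by simp [hd]), h2, rfl⟩⟩

lemma Ht_Yp [Finite α] (n p : α → Prop) : Ht 0 {w | Yp n p w} := by
  refine ((Ht_all 0 n).cat ((Ht_letters 0 p).cat (Ht_univ 0))).congr fun w => ?_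
  simp only [Set.mem_setOf_eq, Yp_iff]
  constructor
  · rintro ⟨x, _, hx, ⟨_, y, ⟨a, ha, rfl⟩, _, rfl⟩, rfl⟩
    exact ⟨x, a, y, hx, ha, rfl⟩
  · rintro ⟨x, a, y, hx, ha, rfl⟩
    exact ⟨x, a :: y, hx, ⟨[a], y, ⟨a, ha, rfl⟩, trivial, rfl⟩, rfl⟩

/-- A block with one state. -/
lemma Ht_path_single [Finite α] (step : Q → α → Q) (T : Q → Prop) (i j : Q)
    (hT : ∀ q, T q ↔ q = i) : Ht 0 (Path step T i j) := by
  refine Ht.congr (L := {w | (i = j) ∧ w ∈ {w : List α | ∀ a ∈ w, step i a = i}})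
    (Ht_and _ fun _ => Ht_all 0 _) fun w => ?_
  have key : ∀ w : List α, inT step T i w ↔ ∀ a ∈ w, step i a = i := by
    intro w
    induction w with
    | nil => simp [inT]
    | cons a w ih =>
      constructor
      · rintro ⟨h1, h3⟩
        have hs : step i a = i := (hT _).1 h1
        rw [hs] at h3
        intro b hb
        rcases List.mem_cons.1 hb with rfl | hb
        · exact hs
        · exact ih.1 h3 b hb
      · intro hw
        have hs : step i a = i := hw a (by simp)
        refine ⟨(hT _).2 hs, ?_⟩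
        rw [hs]; exact ih.2 fun b hb => hw b (by simp [hb])
  have runk : ∀ w : List α, (∀ a ∈ w, step i a = i) → run step i w = i := by
    intro w
    induction w with
    | nil => intro _; rfl
    | cons a w ih =>
      intro hw
      have hs : step i a = i := hw a (by simp)
      change run step (step i a) w = i
      rw [hs]
      exact ih fun b hb => hw b (by simp [hb])
  constructor
  · rintro ⟨rfl, hw⟩
    exact ⟨(key w).2 hw, runk w hw⟩
  · rintro ⟨h1, h2⟩
    have h3 := (key w).1 h1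
    exact ⟨(runk w h3).symm.trans h2, h3⟩

variable (σ : α → ZMod 3)

/-- Neutral words. -/
def NN (w : List α) : Prop := ∀ a ∈ w, σ a = 0

/-- The last non-neutral letter has value `c`. -/
def Zp (c : ZMod 3) : List α → Prop := Fp (fun a => σ a = c) {w | NN σ w}

/-- Two consecutive non-neutral letters have value `c`. -/
def Xp (c : ZMod 3) : List α → Prop :=
  Fp (fun a => σ a = c) {w | Yp (fun a => σ a = 0) (fun a => σ a = c) w}

/-- The walk started at `s ≠ 0` never meets `0`. -/
def stay (s : ZMod 3) (w : List α) : Prop :=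
  ¬ Yp (fun a => σ a = 0) (fun a => σ a = -s) w ∧ ¬ Xp σ s w ∧ ¬ Xp σ (-s) w

lemma Ht_stay [Finite α] (s : ZMod 3) : Ht 0 {w | stay σ s w} :=
  ((Ht_Yp _ _).compl.inter ((Ht_Fp _ (Ht_Yp _ _)).compl.inter (Ht_Fp _ (Ht_Yp _ _)).compl)).congr
    fun w => Iff.rfl

lemma Ht_Zp [Finite α] (s : ZMod 3) : Ht 0 {w | Zp σ s w} :=
  Ht_Fp _ (Ht_all 0 fun a => σ a = 0)

lemma three_cases (s : ZMod 3) (hs : s ≠ 0) (t : ZMod 3) : t = 0 ∨ t = s ∨ t = -s := by
  revert s t; decide

lemma ne_neg (s : ZMod 3) (hs : s ≠ 0) : s ≠ -s := by revert s; decide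

lemma add_self (s : ZMod 3) : s + s = -s := by revert s; decide

lemma stay_cons (s : ZMod 3) (hs : s ≠ 0) (a : α) (w : List α) :
    stay σ s (a :: w) ↔ (s + σ a ≠ 0 ∧ stay σ (s + σ a) w) := by
  have h1 := ne_neg s hs
  have h2 : (0 : ZMod 3) ≠ s := hs.symm
  have h3 : (0 : ZMod 3) ≠ -s := fun h => hs (by rw [← neg_neg s, ← h, neg_zero])
  rcases three_cases s hs (σ a) with h | h | h
  · simp [stay, Xp, Fp, Yp, h, h2, h3, hs]
  · have h4 : -s ≠ 0 := h3.symm
    simp [stay, Xp, Fp, Yp, h, h1, hs, add_self, h4]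
    tauto
  · simp [stay, Yp, h]

lemma tri (s : ZMod 3) (hs : s ≠ 0) (w : List α) :
    (Zp σ (-s) w ↔ ¬ (NN σ w ∨ Zp σ s w)) := by
  induction w generalizing s with
  | nil => simp [Zp, Fp, NN]
  | cons a w ih =>
    have h1 := ne_neg s hs
    have h2 : (0 : ZMod 3) ≠ s := hs.symm
    have h3 : (0 : ZMod 3) ≠ -s := fun h => hs (by rw [← neg_neg s, ← h, neg_zero])
    have e1 := ih s hs
    have e2 := ih (-s) h3.symm
    rw [neg_neg] at e2
    have hN : NN σ (a :: w) ↔ (σ a = 0 ∧ NN σ w) := by simp [NN]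
    have hZ : ∀ c, Zp σ c (a :: w) ↔ ((σ a = c ∧ NN σ w) ∨ Zp σ c w) := fun c => Iff.rfl
    rw [hN, hZ, hZ]
    rcases three_cases s hs (σ a) with h | h | h
    · simp only [h, h2, h3, false_and, false_or, true_and, e1]
    · simp only [h, h1, hs, false_and, false_or, true_and]
      tauto
    · simp only [h, h1.symm, h3.symm, false_and, false_or, true_and]
      tauto

/-- End point of a walk that stays in `{s, -s}`. -/
lemma walk_end (s : ZMod 3) (hs : s ≠ 0) (w : List α) (hw : stay σ s w) :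
    (Zp σ s w → s + (w.map σ).sum = -s) ∧ (¬ Zp σ s w → s + (w.map σ).sum = s) := by
  induction w generalizing s with
  | nil => simp [Zp, Fp]
  | cons a w ih =>
    obtain ⟨h1, h2⟩ := (stay_cons σ s hs a w).1 hw
    have e := ih (s + σ a) h1 h2
    have hZ : Zp σ s (a :: w) ↔ ((σ a = s ∧ NN σ w) ∨ Zp σ s w) := Iff.rfl
    rw [hZ, List.map_cons, List.sum_cons, ← add_assoc]
    rcases three_cases s hs (σ a) with h | h | h
    · rw [h, add_zero] at e
      simp only [h, hs.symm, false_and, false_or, add_zero]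
      exact e
    · rw [h, add_self] at e
      simp only [h, true_and, add_self]
      have t := tri σ s hs w
      rw [neg_neg] at e
      constructor
      · intro h3
        refine e.2 fun h4 => ?_
        exact (t.1 h4) h3
      · intro h3
        exact e.1 (t.2 h3)
    · exact absurd (by rw [h]; simp) h1

end Vale.Agent.P329
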