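import Vale.Agent.Lib.P329.Walk

namespace Vale.Agent.P329

universe u
variable {α : Type u}

/-- Sum of the increments. -/
def sg (σ : α → ZMod 3) (w : List α) : ZMod 3 := (w.map σ).sum

/-- The cocycle of the letter values `v`. -/
def Fc {A : Type*} [AddCommGroup A] (ρ : ZMod 3 → A →+ A) (σ : α → ZMod 3) (v : α → A) :
    List α → A
  | [] => 0
  | a :: w => v a + ρ (σ a) (Fc ρ σ v w)

/-- All languages given by the value of the cocycle and of `sg` have height at most one. -/
def Good {A : Type*} [AddCommGroup A] (ρ : ZMod 3 → A →+ A) (σ : α → ZMod 3) (v : α → A) : Prop :=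
  ∀ z j, Ht 1 {w : List α | Fc ρ σ v w = z ∧ sg σ w = j}

lemma Good.sg_lang {A : Type*} [AddCommGroup A] [Finite A] {ρ : ZMod 3 → A →+ A}
    {σ : α → ZMod 3} {v : α → A} (h : Good ρ σ v) (j : ZMod 3) :
    Ht 1 {w : List α | sg σ w = j} :=
  (Ht_exists (fun z : A => {w : List α | Fc ρ σ v w = z ∧ sg σ w = j}) fun z => h z j).congr
    fun w => by simp

lemma Fc_add {A : Type*} [AddCommGroup A] (ρ : ZMod 3 → A →+ A) (σ : α → ZMod 3)
    (v v' : α → A) (w : List α) :
    Fc ρ σ (fun a => v a + v' a) w = Fc ρ σ v w + Fc ρ σ v' w := by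
  induction w with
  | nil => simp [Fc]
  | cons a w ih => simp only [Fc, ih, map_add]; abel

lemma Fc_zero {A : Type*} [AddCommGroup A] (ρ : ZMod 3 → A →+ A) (σ : α → ZMod 3)
    (w : List α) : Fc ρ σ (fun _ => 0) w = 0 := by
  induction w with
  | nil => simp [Fc]
  | cons a w ih => simp only [Fc, ih, map_zero, add_zero]

lemma Fc_map {A B : Type*} [AddCommGroup A] [AddCommGroup B] (ρ : ZMod 3 → A →+ A)
    (ρ' : ZMod 3 → B →+ B) (l : A →+ B) (hl : ∀ t x, l (ρ t x) = ρ' t (l x))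
    (σ : α → ZMod 3) (v : α → A) (w : List α) :
    Fc ρ' σ (fun a => l (v a)) w = l (Fc ρ σ v w) := by
  induction w with
  | nil => simp [Fc]
  | cons a w ih => simp only [Fc, ih, map_add, hl]

lemma Good.add {A : Type*} [AddCommGroup A] [Finite A] {ρ : ZMod 3 → A →+ A}
    {σ : α → ZMod 3} {v v' : α → A} (h : Good ρ σ v) (h' : Good ρ σ v') :
    Good ρ σ (fun a => v a + v' a) := by
  intro z j
  refine (Ht_exists (fun x : A => {w : List α | Fc ρ σ v w = x ∧ sg σ w = j} ∩
    {w : List α | Fc ρ σ v' w = z - x ∧ sg σ w = j}) fun x => (h x j).inter (h' _ j)).congr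
    fun w => ?_
  simp only [Set.mem_setOf_eq, Set.mem_inter_iff, Fc_add]
  constructor
  · rintro ⟨x, ⟨h1, h2⟩, h3, _⟩
    exact ⟨by rw [h1, h3]; abel, h2⟩
  · rintro ⟨h1, h2⟩
    exact ⟨Fc ρ σ v w, ⟨rfl, h2⟩, by rw [← h1]; abel, h2⟩

lemma Good.zero {A : Type*} [AddCommGroup A] [Finite A] {ρ : ZMod 3 → A →+ A}
    {σ : α → ZMod 3} {v : α → A} (h : Good ρ σ v) : Good ρ σ (fun _ => (0 : A)) := by
  intro z j
  refine (Ht_and (z = 0) (fun _ => h.sg_lang j)).congr fun w => ?_
  simp only [Set.mem_setOf_eq, Fc_zero, eq_comm]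

lemma Good.map {A B : Type*} [AddCommGroup A] [AddCommGroup B] [Finite A]
    {ρ : ZMod 3 → A →+ A} {ρ' : ZMod 3 → B →+ B} {σ : α → ZMod 3} {v : α → A} (l : A →+ B)
    (hl : ∀ t x, l (ρ t x) = ρ' t (l x)) (h : Good ρ σ v) : Good ρ' σ (fun a => l (v a)) := by
  intro z j
  refine (Ht_exists (fun x : A => {w | (l x = z) ∧ w ∈ {w : List α | Fc ρ σ v w = x ∧ sg σ w = j}})
    fun x => Ht_and _ fun _ => h x j).congr fun w => ?_
  simp only [Set.mem_setOf_eq, Fc_map ρ ρ' l hl]
  constructor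
  · rintro ⟨x, h1, h2, h3⟩
    exact ⟨by rw [h2, h1], h3⟩
  · rintro ⟨h1, h2⟩
    exact ⟨_, h1, rfl, h2⟩

/-! ### The regular module of `ZMod 3` over `ZMod 2` -/

/-- Functions `ZMod 3 → ZMod 2`. -/
abbrev Reg : Type := ZMod 3 → ZMod 2

/-- Translation. -/
def rhoR (t : ZMod 3) : Reg →+ Reg where
  toFun g := fun s => g (s + t)
  map_zero' := rfl
  map_add' _ _ := rfl

/-- The letter values of the second automaton. -/
def uM (σ : α → ZMod 3) (M : α → Prop) [DecidablePred M] (a : α) : Reg :=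
  fun s => if s = 0 ∧ (σ a ≠ 0 ∨ M a) then 1 else 0

/-- The second automaton. -/
def step2 (σ : α → ZMod 3) (u : α → Reg) (q : ZMod 3 × ZMod 2) (a : α) : ZMod 3 × ZMod 2 :=
  (q.1 + σ a, q.2 + u a q.1)

lemma run_step2 (σ : α → ZMod 3) (u : α → Reg) (q : ZMod 3 × ZMod 2) (w : List α) :
    run (step2 σ u) q w = (q.1 + sg σ w, q.2 + Fc rhoR σ u w q.1) := by
  induction w generalizing q with
  | nil => simp [run, sg, Fc]
  | cons a w ih =>
    simp only [run, ih, step2, sg, Fc, List.map_cons, List.sum_cons, rhoR, AddMonoidHom.coe_mk,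
      ZeroHom.coe_mk, Pi.add_apply]
    exact Prod.ext (by simp only; ring) (by simp only; ring)

/-- Ranks. -/
def rk2 (q : ZMod 3 × ZMod 2) : ℕ := if q.1 = 0 then 1 else (if q.2 = 0 then 2 else 0)

lemma rk2_eq (s : ZMod 3) (x : ZMod 2) (hs : s ≠ 0) (q : ZMod 3 × ZMod 2) :
    (q ≠ (0, 0) ∧ rk2 q = rk2 (s, x)) ↔ (q.1 ≠ 0 ∧ q.2 = x) := by
  revert s x q; decide

lemma rk2_eq' (x : ZMod 2) (hx : ((0 : ZMod 3), x) ≠ (0, 0)) (q : ZMod 3 × ZMod 2) :
    (q ≠ (0, 0) ∧ rk2 q = rk2 (0, x)) ↔ q = (0, x) := by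
  revert x q; decide

lemma rk2_mono (t : ZMod 3) (m : Bool) (q : ZMod 3 × ZMod 2) (hq : q ≠ (0, 0))
    (hs : ((q.1 + t, q.2 + if q.1 = 0 ∧ (t ≠ 0 ∨ m = true) then 1 else 0) :
      ZMod 3 × ZMod 2) ≠ (0, 0)) :
    rk2 q ≤ rk2 (q.1 + t, q.2 + if q.1 = 0 ∧ (t ≠ 0 ∨ m = true) then 1 else 0) := by
  revert t m q; decide

lemma Ht_run_step2 [Finite α] (σ : α → ZMod 3) (M : α → Prop) [DecidablePred M]
    (hM : ∀ a, M a → σ a = 0) (i j : ZMod 3 × ZMod 2) :
    Ht 1 {w : List α | run (step2 σ (uM σ M)) i w = j} := by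
  refine Ht_run _ (0, 0) (fun i j => Ht_path_of_rank _ (0, 0) rk2 (fun q a hq hs => ?_)
    (fun i j hi => ?_) i j) i j
  · have := rk2_mono (σ a) (decide (M a)) q hq
    simp only [decide_eq_true_eq] at this
    exact this hs
  · obtain ⟨s, x⟩ := i
    by_cases hs : s = 0
    · subst hs
      exact Ht_path_single _ _ _ _ fun q => rk2_eq' x hi q
    · have hstep : ∀ (t : ZMod 3) (a : α), t ≠ 0 →
          step2 σ (uM σ M) (t, x) a = (t + σ a, x) := by
        intro t a ht
        simp [step2, uM, ht]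
      have key : ∀ (w : List α) (t : ZMod 3), t ≠ 0 →
          (inT (step2 σ (uM σ M)) (fun q => q ≠ (0, 0) ∧ rk2 q = rk2 (s, x)) (t, x) w ↔
            stay σ t w) := by
        intro w
        induction w with
        | nil => intro t _; simp [inT, stay, Xp, Fp, Yp]
        | cons a w ih =>
          intro t ht
          rw [stay_cons σ t ht, inT, hstep t a ht, rk2_eq s x hs]
          constructor
          · rintro ⟨⟨h1, _⟩, h2⟩
            exact ⟨h1, (ih _ h1).1 h2⟩
          · rintro ⟨h1, h2⟩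
            exact ⟨⟨h1, rfl⟩, (ih _ h1).2 h2⟩
      have keyr : ∀ (w : List α) (t : ZMod 3), t ≠ 0 → stay σ t w →
          run (step2 σ (uM σ M)) (t, x) w = (t + (w.map σ).sum, x) := by
        intro w
        induction w with
        | nil => intro t _ _; simp [run]
        | cons a w ih =>
          intro t ht hst
          obtain ⟨h1, h2⟩ := (stay_cons σ t ht a w).1 hst
          rw [run, hstep t a ht, ih _ h1 h2, List.map_cons, List.sum_cons, add_assoc]
      refine Ht.congr (L := {w | w ∈ {w | stay σ s w}} ∩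
        ({w | (j = (-s, x)) ∧ w ∈ {w | Zp σ s w}} ∪ {w | (j = (s, x)) ∧ w ∈ {w | Zp σ s w}ᶜ}))
        ((Ht_stay σ s).inter ((Ht_and _ fun _ => Ht_Zp σ s).union
          (Ht_and _ fun _ => (Ht_Zp σ s).compl))) fun w => ?_
      simp only [Path, Set.mem_inter_iff, Set.mem_union, Set.mem_setOf_eq, Set.mem_compl_iff,
        key w s hs]
      refine and_congr_right fun hst => ?_
      rw [keyr w s hs hst]
      have e := walk_end σ s hs w hst
      by_cases hz : Zp σ s w
      · rw [e.1 hz]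
        simp [hz, eq_comm]
      · rw [e.2 hz]
        simp [hz, eq_comm]

lemma Good_uM [Finite α] (σ : α → ZMod 3) (M : α → Prop) [DecidablePred M]
    (hM : ∀ a, M a → σ a = 0) : Good rhoR σ (uM σ M) := by
  intro z j
  refine (Ht_forall (fun s : ZMod 3 =>
    {w : List α | run (step2 σ (uM σ M)) (s, 0) w = (s + j, z s)})
    fun s => Ht_run_step2 σ M hM _ _).congr fun w => ?_
  simp only [Set.mem_setOf_eq, run_step2, Prod.mk.injEq, add_right_inj, zero_add]
  constructor
  · intro h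
    exact ⟨funext fun s => (h s).2, (h 0).1⟩
  · rintro ⟨h1, h2⟩ s
    exact ⟨h2, by rw [h1]⟩

/-- The unit function at `0`. -/
def dl : Reg := fun s => if s = 0 then 1 else 0

lemma Good_single_N [Finite α] [DecidableEq α] (σ : α → ZMod 3) (a : α) (ha : σ a = 0) :
    Good rhoR σ (fun b => if b = a then dl else 0) := by
  have h1 := (Good_uM σ (fun b => b = a) (by rintro b rfl; exact ha)).add
    (Good_uM σ (fun _ => False) (by intro b hb; exact hb.elim))
  refine cast (congrArg (Good rhoR σ) (funext fun b => funext fun s => ?_)) h1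
  simp only [uM, Pi.add_apply]
  by_cases hb : b = a
  · subst hb
    by_cases hs : s = 0 <;> simp [dl, ha, hs]
  · by_cases hs : s = 0
    · by_cases hσ : σ b = 0
      · simp [hb, hs, hσ]
      · simp only [hb, hs, hσ, ne_eq, not_false_eq_true, or_false, and_true, if_true, if_false]
        change (1 : ZMod 2) + 1 = 0
        decide
    · simp [hb, hs]

end Vale.Agent.P329
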